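import Mathlib

/-!
Row (4)-COMB of the (A4) block (589, note 13190, step (4)): the combinatorics of excursions.

`V n` = value of `U` on the axis at octave `n`. `K` = threshold, `D > 1`, `A = D ^ (3 M + 1)` the
growth per octave of a large value, `θ = D ^ (- 3 M)` the decay of the harmonic measure.
`exc` : infinitely many ends `n` of excursions such that one of the two weighted sums is bounded.
-/

open Finset

namespace Vale.Agent.P097.H226

/-- `b` is the end of an excursion: small at `b`, large at `b - 1`. -/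
def IsEnd (V : ℕ → ℝ) (K : ℝ) (b : ℕ) : Prop := 0 < b ∧ |V b| ≤ K ∧ K < |V (b - 1)|

open Classical in
/-- length of the excursion which ends at `b` -/
noncomputable def len (V : ℕ → ℝ) (K : ℝ) (b : ℕ) : ℕ :=
  Nat.findGreatest (fun l => ∀ j < l, K < |V (b - 1 - j)|) b

variable {V : ℕ → ℝ} {K : ℝ} {b m n j : ℕ}

theorem len_le : len V K b ≤ b := by
  classical
  exact Nat.findGreatest_le _

theorem len_spec (hj : j < len V K b) : K < |V (b - 1 - j)| := by
  classical
  have h : (fun l => ∀ j < l, K < |V (b - 1 - j)|) (len V K b) := by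
    have h0 : (fun l => ∀ j < l, K < |V (b - 1 - j)|) 0 := fun j hj => absurd hj (Nat.not_lt_zero j)
    exact Nat.findGreatest_spec (P := fun l => ∀ j < l, K < |V (b - 1 - j)|) (Nat.zero_le b) h0
  exact h j hj

theorem le_len {l : ℕ} (hl : l ≤ b) (h : ∀ j < l, K < |V (b - 1 - j)|) : l ≤ len V K b := by
  classical
  exact Nat.le_findGreatest hl h

/-- an excursion does not contain an earlier small value -/
theorem len_le_sub (hg : m < b) (hV : |V m| ≤ K) : len V K b ≤ b - m := by
  by_contra hcon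
  push Not at hcon
  have h1 : b - 1 - m < len V K b := by omega
  have h2 := len_spec h1
  have h3 : b - 1 - (b - 1 - m) = m := by omega
  rw [h3] at h2
  linarith

/-- the hypotheses on the sequence -/
structure Seq (V : ℕ → ℝ) (K A : ℝ) : Prop where
  K0 : 0 < K
  A1 : 1 ≤ A
  sign : ∀ n, K < |V n| → K < |V (n + 1)| → 0 < V n * V (n + 1)
  grow : ∀ n, K < |V n| → |V n| ≤ A * max |V (n + 1)| K

variable {A : ℝ}

theorem Seq.bound (h : Seq V K A) (hb : IsEnd V K b) :
    ∀ j, j < len V K b → |V (b - 1 - j)| ≤ A ^ (j + 1) * K := by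
  intro j
  induction j with
  | zero =>
    intro hj
    have h1 := h.grow (b - 1) hb.2.2
    have h2 : b - 1 + 1 = b := Nat.sub_add_cancel hb.1
    rw [h2, max_eq_right hb.2.1] at h1
    simpa using h1
  | succ j ih =>
    intro hj
    have h0 := ih (by omega)
    have h1 := h.grow (b - 1 - (j + 1)) (len_spec hj)
    have hlb : len V K b ≤ b := len_le
    have h2 : b - 1 - (j + 1) + 1 = b - 1 - j := by omega
    rw [h2] at h1
    have h3 := len_spec (show j < len V K b by omega)
    rw [max_eq_left h3.le] at h1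
    calc |V (b - 1 - (j + 1))| ≤ A * |V (b - 1 - j)| := h1
      _ ≤ A * (A ^ (j + 1) * K) := by
        have := h.A1
        gcongr
      _ = A ^ (j + 1 + 1) * K := by ring

theorem Seq.sgn (h : Seq V K A) (hb : IsEnd V K b) :
    ∀ j, j < len V K b → 0 < V (b - 1 - j) * V (b - 1) := by
  intro j
  induction j with
  | zero =>
    intro _
    have h1 : 0 < |V (b - 1)| := h.K0.trans hb.2.2
    have h2 : V (b - 1) ≠ 0 := abs_pos.mp h1
    simpa using mul_self_pos.mpr h2
  | succ j ih =>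
    intro hj
    have h0 := ih (by omega)
    have hlb : len V K b ≤ b := len_le
    have h2 : b - 1 - (j + 1) + 1 = b - 1 - j := by omega
    have h1 := h.sign (b - 1 - (j + 1)) (len_spec hj)
      (by rw [h2]; exact len_spec (show j < len V K b by omega))
    rw [h2] at h1
    have h3 : 0 < (V (b - 1 - (j + 1)) * V (b - 1)) * (V (b - 1 - j)) ^ 2 := by
      nlinarith [mul_pos h1 h0]
    have h4 : 0 < (V (b - 1 - j)) ^ 2 := by
      have : V (b - 1 - j) ≠ 0 := by
        intro h5
        rw [h5] at h0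
        simp at h0
      positivity
    exact (pos_iff_pos_of_mul_pos h3).mpr h4

/-- a large value at `m`, followed by a small one at `n`, belongs to an excursion ending `≤ n` -/
theorem exists_end (hm : K < |V m|) (hn : |V n| ≤ K) (hmn : m < n) :
    ∃ b, m < b ∧ b ≤ n ∧ IsEnd V K b ∧ b - 1 - m < len V K b := by
  classical
  have hex : ∃ b, m < b ∧ |V b| ≤ K := ⟨n, hmn, hn⟩
  obtain ⟨h1, h2⟩ := Nat.find_spec hex
  set b := Nat.find hex with hbdef
  have hmin : ∀ c, m < c → c < b → K < |V c| := by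
    intro c hc1 hc2
    by_contra h3
    push Not at h3
    exact Nat.find_min hex hc2 ⟨hc1, h3⟩
  have hall : ∀ c, m ≤ c → c < b → K < |V c| := by
    intro c hc1 hc2
    rcases hc1.eq_or_lt with h4 | h4
    · rw [← h4]; exact hm
    · exact hmin c h4 hc2
  refine ⟨b, h1, Nat.find_min' hex ⟨hmn, hn⟩, ⟨by omega, h2, hall (b - 1) (by omega) (by omega)⟩, ?_⟩
  have : b - m ≤ len V K b := by
    apply le_len (by omega)
    intro j hj
    exact hall _ (by omega) (by omega)
  omega

/-- `n` is good: every excursion of the other sign which ends before `n` is short -/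
def Good (V : ℕ → ℝ) (K : ℝ) (M n : ℕ) : Prop :=
  ∀ b < n, IsEnd V K b → V (b - 1) * V (n - 1) < 0 → len V K b ≤ M * (n - b)

theorem exists_good (M : ℕ) (hM : 1 ≤ M) : ∀ n, IsEnd V K n →
    ∃ g ≤ n, IsEnd V K g ∧ Good V K M g ∧ (M - 1) * (n - g) + len V K n ≤ len V K g := by
  intro n
  induction n using Nat.strong_induction_on with
  | _ n ih =>
    intro hn
    by_cases hg : Good V K M n
    · exact ⟨n, le_rfl, hn, hg, by simp⟩
    · unfold Good at hg
      push Not at hg
      obtain ⟨b, hbn, hb, -, hlen⟩ := hg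
      obtain ⟨g, hgb, hge, hgg, hgl⟩ := ih b hbn hb
      refine ⟨g, by omega, hge, hgg, ?_⟩
      have h1 : len V K n ≤ n - b := len_le_sub hbn hb.2.1
      have h2 : n - g = (n - b) + (b - g) := by omega
      obtain ⟨M', rfl⟩ : ∃ M', M = M' + 1 := ⟨M - 1, by omega⟩
      rw [h2]
      simp only [Nat.add_sub_cancel] at hgl ⊢
      nlinarith

/-- pointwise bound at a good place, for the values of the other sign -/
theorem Seq.point {D : ℝ} {M : ℕ} (hD : 1 < D) (hM : 1 ≤ M) (h : Seq V K (D ^ (3 * M + 1)))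
    (hn : IsEnd V K n) (hg : Good V K M n) (hmn : m ≤ n) (hs : V m * V (n - 1) < 0) :
    (D⁻¹ ^ (3 * M)) ^ (n - m) * |V m| ≤ K * D⁻¹ ^ (n - m) := by
  have hD0 : 0 < D := by linarith
  have hDi : 0 < D⁻¹ := by positivity
  have hDi1 : D⁻¹ ≤ 1 := inv_le_one_of_one_le₀ hD.le
  by_cases hm : |V m| ≤ K
  · have h1 : (D⁻¹ ^ (3 * M)) ^ (n - m) ≤ D⁻¹ ^ (n - m) := by
      rw [← pow_mul]
      apply pow_le_pow_of_le_one hDi.le hDi1
      nlinarith
    calc (D⁻¹ ^ (3 * M)) ^ (n - m) * |V m| ≤ D⁻¹ ^ (n - m) * K := by gcongr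
      _ = _ := by ring
  · push Not at hm
    have hmn' : m < n := by
      rcases hmn.eq_or_lt with h1 | h1
      · rw [h1] at hm; linarith [hn.2.1]
      · exact h1
    obtain ⟨b, hmb, hbn, hb, hlen⟩ := exists_end hm hn.2.1 hmn'
    have hlb : len V K b ≤ b := len_le
    have hidx : b - 1 - (b - 1 - m) = m := by omega
    have hbd := h.bound hb _ hlen
    have hsg := h.sgn hb _ hlen
    rw [hidx] at hbd hsg
    have hbn' : b < n := by
      rcases hbn.eq_or_lt with h1 | h1
      · rw [h1] at hsg; linarith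
      · exact h1
    have hopp : V (b - 1) * V (n - 1) < 0 := by
      have h1 : (V m * V (b - 1)) * (V m * V (n - 1)) < 0 := mul_neg_of_pos_of_neg hsg hs
      have h2 : (V m) ^ 2 * (V (b - 1) * V (n - 1)) < 0 := by nlinarith
      by_contra h3
      push Not at h3
      have := mul_nonneg (sq_nonneg (V m)) h3
      linarith
    have hL := hg b hbn' hb hopp
    have he : b - 1 - m + 1 = b - m := by omega
    rw [he] at hbd
    have hy : b - m ≤ M * (n - b) := by omega
    have hexp : n - m + (3 * M + 1) * (b - m) ≤ 3 * M * (n - m) := by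
      have h4 : n - m = (n - b) + (b - m) := by omega
      rw [h4]
      have h5 : 1 ≤ n - b := by omega
      nlinarith
    have key : (D⁻¹ ^ (3 * M)) ^ (n - m) * (D ^ (3 * M + 1)) ^ (b - m) ≤ D⁻¹ ^ (n - m) := by
      rw [← pow_mul, ← pow_mul]
      obtain ⟨c, hc⟩ := Nat.exists_eq_add_of_le hexp
      rw [hc, pow_add, pow_add]
      have h6 : D⁻¹ ^ ((3 * M + 1) * (b - m)) * D ^ ((3 * M + 1) * (b - m)) = 1 := by
        rw [← mul_pow, inv_mul_cancel₀ hD0.ne', one_pow]
      have h7 : D⁻¹ ^ c ≤ 1 := pow_le_one₀ hDi.le hDi1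
      have h8 : 0 ≤ D⁻¹ ^ (n - m) := by positivity
      calc D⁻¹ ^ (n - m) * D⁻¹ ^ ((3 * M + 1) * (b - m)) * D⁻¹ ^ c * D ^ ((3 * M + 1) * (b - m))
          = D⁻¹ ^ (n - m) * (D⁻¹ ^ ((3 * M + 1) * (b - m)) * D ^ ((3 * M + 1) * (b - m)))
            * D⁻¹ ^ c := by ring
        _ = D⁻¹ ^ (n - m) * D⁻¹ ^ c := by rw [h6, mul_one]
        _ ≤ D⁻¹ ^ (n - m) * 1 := by gcongr
        _ = _ := mul_one _
    calc (D⁻¹ ^ (3 * M)) ^ (n - m) * |V m|
        ≤ (D⁻¹ ^ (3 * M)) ^ (n - m) * ((D ^ (3 * M + 1)) ^ (b - m) * K) := by gcongr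
      _ = K * ((D⁻¹ ^ (3 * M)) ^ (n - m) * (D ^ (3 * M + 1)) ^ (b - m)) := by ring
      _ ≤ K * D⁻¹ ^ (n - m) := by
        have := h.K0
        gcongr

theorem geom_bound {D : ℝ} (hD : 1 < D) (n : ℕ) :
    ∑ m ∈ range (n + 1), D⁻¹ ^ (n - m) ≤ D / (D - 1) := by
  have h1 : ∑ m ∈ range (n + 1), D⁻¹ ^ (n - m) = ∑ m ∈ range (n + 1), D⁻¹ ^ m := by
    have := Finset.sum_range_reflect (fun m => D⁻¹ ^ m) (n + 1)
    simpa using this
  rw [h1]
  have hD0 : 0 < D := by linarith
  have hDi : 0 ≤ D⁻¹ := by positivity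
  have hD1 : D⁻¹ < 1 := inv_lt_one_of_one_lt₀ hD
  have h2 : ∑ m ∈ range (n + 1), D⁻¹ ^ m ≤ (1 - D⁻¹)⁻¹ := by
    rw [← tsum_geometric_of_lt_one hDi hD1]
    exact (summable_geometric_of_lt_one hDi hD1).sum_le_tsum _ (fun _ _ => by positivity)
  have h3 : (1 - D⁻¹)⁻¹ = D / (D - 1) := by
    have h4 : D - 1 ≠ 0 := by linarith
    have h5 : (1 : ℝ) - D⁻¹ = (D - 1) / D := by field_simp
    rw [h5, inv_div]
  rw [← h3]
  exact h2

/-- **(4)-COMB**: infinitely many ends of excursions at which the weighted sum of the values of the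
other sign is bounded. -/
theorem exc {D : ℝ} {M : ℕ} (hD : 1 < D) (hM : 2 ≤ M) (h : Seq V K (D ^ (3 * M + 1)))
    (io1 : ∀ N, ∃ n ≥ N, K < |V n|) (io2 : ∀ N, ∃ n ≥ N, |V n| ≤ K) (N : ℕ) :
    ∃ n ≥ N, IsEnd V K n ∧
      ((V (n - 1) < 0 ∧ ∑ m ∈ range (n + 1), (D⁻¹ ^ (3 * M)) ^ (n - m) * max (V m) 0
          ≤ K * (D / (D - 1))) ∨
       (0 < V (n - 1) ∧ ∑ m ∈ range (n + 1), (D⁻¹ ^ (3 * M)) ^ (n - m) * max (-V m) 0
          ≤ K * (D / (D - 1)))) := by
  obtain ⟨m1, hm1, hm1'⟩ := io1 (2 * N)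
  obtain ⟨m2, hm2, hm2'⟩ := io2 m1
  have hlt : m1 < m2 := by
    rcases hm2.lt_or_eq with h1 | h1
    · exact h1
    · rw [← h1] at hm2'; linarith
  obtain ⟨b, hb1, -, hb, -⟩ := exists_end hm1' hm2' hlt
  obtain ⟨g, hgb, hg, hgood, hl⟩ := exists_good (V := V) (K := K) M (by omega) b hb
  have hlg : len V K g ≤ g := len_le
  have hgN : N ≤ g := by
    obtain ⟨M', rfl⟩ : ∃ M', M = M' + 2 := ⟨M - 2, by omega⟩
    have h1 : M' + 2 - 1 = M' + 1 := by omega
    rw [h1] at hl
    have h2 : b - g ≤ (M' + 1) * (b - g) := by nlinarith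
    omega
  have hD0 : 0 < D := by linarith
  have hDi : 0 < D⁻¹ := by positivity
  have hV1 : V (g - 1) ≠ 0 := by
    intro h1
    have h2 := hg.2.2
    rw [h1, abs_zero] at h2
    linarith [h.K0]
  have hK0 := h.K0
  refine ⟨g, hgN, hg, ?_⟩
  rcases lt_or_gt_of_ne hV1 with h1 | h1
  · left
    refine ⟨h1, ?_⟩
    calc ∑ m ∈ range (g + 1), (D⁻¹ ^ (3 * M)) ^ (g - m) * max (V m) 0
        ≤ ∑ m ∈ range (g + 1), K * D⁻¹ ^ (g - m) := by
          apply Finset.sum_le_sum
          intro m hm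
          have hmg : m ≤ g := by
            have := Finset.mem_range.mp hm
            omega
          rcases le_or_gt (V m) 0 with h2 | h2
          · rw [max_eq_right h2, mul_zero]
            positivity
          · rw [max_eq_left h2.le]
            have h3 := h.point hD (by omega) hg hgood hmg (mul_neg_of_pos_of_neg h2 h1)
            rwa [abs_of_pos h2] at h3
      _ = K * ∑ m ∈ range (g + 1), D⁻¹ ^ (g - m) := by rw [Finset.mul_sum]
      _ ≤ K * (D / (D - 1)) := by
          gcongr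
          exact geom_bound hD g
  · right
    refine ⟨h1, ?_⟩
    calc ∑ m ∈ range (g + 1), (D⁻¹ ^ (3 * M)) ^ (g - m) * max (-V m) 0
        ≤ ∑ m ∈ range (g + 1), K * D⁻¹ ^ (g - m) := by
          apply Finset.sum_le_sum
          intro m hm
          have hmg : m ≤ g := by
            have := Finset.mem_range.mp hm
            omega
          rcases le_or_gt 0 (V m) with h2 | h2
          · rw [max_eq_right (by linarith), mul_zero]
            positivity
          · rw [max_eq_left (by linarith)]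
            have h3 := h.point hD (by omega) hg hgood hmg (mul_neg_of_neg_of_pos h2 h1)
            rwa [abs_of_neg h2] at h3
      _ = K * ∑ m ∈ range (g + 1), D⁻¹ ^ (g - m) := by rw [Finset.mul_sum]
      _ ≤ K * (D / (D - 1)) := by
          gcongr
          exact geom_bound hD g

end Vale.Agent.P097.H226
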