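import Vale.Agent.P097.TC.Defs

/-!
Interface of the row Gsc of TC/Defs: bounds at good scales (226) -> linear change of coordinates
(LIN) -> limit passage (264 / 91).
-/

open Complex Metric Filter Topology Set MeasureTheory
open Vale.Agent.P097.TC

namespace Vale.Agent.P097.H226

/-- the open quadrant -/
def Qd : Set (ℝ × ℝ) := {y | 0 < y.1 ∧ 0 < y.2}

/-- bounds at a sequence of good scales on the tube over the cone `K` -/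
structure Bdd (F : ℂ → ℂ) (K : Set (ℝ × ℝ)) (k : ℝ) (al p : ℂ × ℂ → ℂ) (e : ℝ × ℝ) (x : ℂ)
    (r : ℕ → ℝ) (N : ℕ → ℤ) : Prop where
  r0 : ∀ n, 0 < r n
  rt : Tendsto r atTop (𝓝 0)
  bal : ∀ W : Set (ℂ × ℂ), IsCompact W → W ⊆ Tc K → ∃ M : ℝ, ∀ᶠ n in atTop, ∀ z ∈ W,
    ‖al (bl e (r n) z) - 2 * Real.pi * N n‖ ≤ M
  bp : ∀ W : Set (ℂ × ℂ), IsCompact W → W ⊆ Tc K → ∃ M : ℝ, ∀ᶠ n in atTop, ∀ z ∈ W,
    ‖p (bl e (r n) z)‖ ≤ M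
  nd : ∃ W : Set (ℂ × ℂ), IsCompact W ∧ W ⊆ Tc (K1 k) ∧ ∃ c > 0, ∀ n, ∃ z ∈ W,
    c ≤ ‖Complex.sin (al (bl e (r n) z) - F x)‖

/-- **row GQ** (226): good scales in quadrant form -/
def GQ : Prop := ∀ {Λ b : ℝ} {F q : ℂ → ℂ} {e₀ : ℝ × ℝ} {ρ k : ℝ} {al p th : ℂ × ℂ → ℂ},
  LW Λ b F q e₀ ρ k al p th →
  ∀ᵐ e : ℝ × ℝ, e ∈ ball e₀ ρ → ∀ x ∈ Sb b, deriv F x ≠ 0 → NT th k e x →
    ∃ (r : ℕ → ℝ) (N : ℕ → ℤ), Bdd F Qd k al p e x r N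

/-- **row GK** : the same on every cone `K2 k'`, `k' < k` -/
def GK : Prop := ∀ {Λ b : ℝ} {F q : ℂ → ℂ} {e₀ : ℝ × ℝ} {ρ k : ℝ} {al p th : ℂ × ℂ → ℂ},
  LW Λ b F q e₀ ρ k al p th → ∀ k' : ℝ, 0 < k' → k' < k →
  ∀ᵐ e : ℝ × ℝ, e ∈ ball e₀ ρ → ∀ x ∈ Sb b, deriv F x ≠ 0 → NT th k e x →
    ∃ (r : ℕ → ℝ) (N : ℕ → ℤ), Bdd F (K2 k') k al p e x r N

/-- **row LIN** : real linear change `L (μ, ζ) = (μ - κ ζ, ζ - κ μ)`, `k' < κ < k`: it maps the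
world over `K1 k, K2 k` to one over `K1 k₂, K2 k₂`, `k₂ = (k - κ)/(1 - k κ)`, and `K2 k'` into the
quadrant -/
def LIN : Prop := GQ → GK

end Vale.Agent.P097.H226
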