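import Vale.Agent.P097.H699.Normal
import Vale.Agent.P097.H226.Exc

/-!
Sharp Harnack inequality per octave on the axis (row (4) of the (A4) block, 589 note 13190).

If `f` is holomorphic and omits `0` and `1` on the disc `B(i M, M - δ/2)` (scaled by `h`), and
`|log |f(i)||` is large, then `log |f|` has constant sign on `B(i M, M - δ)` and
`|log |f(i)|| ≤ A |log |f(i/2)||` with `A → 2` for `M → ∞`, `δ → 0`.
-/

open Complex Metric Set Filter Topology
open Vale.Agent.P097.H699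

namespace Vale.Agent.P097.H226

/-- sharp Harnack inequality at the centre of the unit disc -/
theorem harnack_centre {H : ℂ → ℂ} (hH : DifferentiableOn ℂ H (ball 0 1))
    (hpos : ∀ z ∈ ball (0 : ℂ) 1, 0 < (H z).re) {c : ℂ} (hc : c ∈ ball (0 : ℂ) 1) :
    (1 - ‖c‖) * (H 0).re ≤ (1 + ‖c‖) * (H c).re := by
  have h0 : (0 : ℂ) ∈ ball (0 : ℂ) 1 := mem_ball_self one_pos
  set Y := H 0 with hY
  have hYp : 0 < Y.re := hpos 0 h0
  have hden : ∀ z ∈ ball (0 : ℂ) 1, H z + (starRingEnd ℂ) Y ≠ 0 := by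
    intro z hz h
    have := congrArg Complex.re h
    simp at this
    linarith [hpos z hz]
  have key : ∀ X : ℂ, ‖X + (starRingEnd ℂ) Y‖ ^ 2 - ‖X - Y‖ ^ 2 = 4 * X.re * Y.re := by
    intro X
    rw [← Complex.normSq_eq_norm_sq, ← Complex.normSq_eq_norm_sq, normSq_apply, normSq_apply]
    simp only [add_re, add_im, sub_re, sub_im, conj_re, conj_im]
    ring
  set φ : ℂ → ℂ := fun z => (H z - Y) / (H z + (starRingEnd ℂ) Y) with hφ
  have hφd : DifferentiableOn ℂ φ (ball 0 1) :=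
    (hH.sub (differentiableOn_const _)).div (hH.add (differentiableOn_const _)) hden
  have hmaps : MapsTo φ (ball 0 1) (ball 0 1) := by
    intro z hz
    rw [mem_ball_zero_iff, hφ]
    simp only
    have h1 : 0 < ‖H z + (starRingEnd ℂ) Y‖ := norm_pos_iff.mpr (hden z hz)
    rw [norm_div, div_lt_one h1]
    have h2 := key (H z)
    have h3 : 0 < 4 * (H z).re * Y.re := by
      have := hpos z hz
      positivity
    nlinarith [norm_nonneg (H z - Y)]
  have hφ0 : φ 0 = 0 := by simp [hφ, ← hY]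
  have h1 : ‖φ c‖ ≤ ‖c‖ := by
    rw [mem_ball_zero_iff] at hc
    exact norm_le_norm_of_mapsTo_ball hφd (hmaps.mono_right ball_subset_closedBall) hφ0 hc
  set X := H c with hX
  have hXp : 0 < X.re := hpos c hc
  have h2 : 0 < ‖X + (starRingEnd ℂ) Y‖ := norm_pos_iff.mpr (hden c hc)
  have h3 : ‖X - Y‖ ≤ ‖c‖ * ‖X + (starRingEnd ℂ) Y‖ := by
    have : ‖φ c‖ = ‖X - Y‖ / ‖X + (starRingEnd ℂ) Y‖ := by rw [hφ]; simp only [norm_div, ← hX]
    rw [this, div_le_iff₀ h2] at h1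
    exact h1
  have hc1 : ‖c‖ < 1 := mem_ball_zero_iff.mp hc
  have hc0 := norm_nonneg c
  have h4 := key X
  have h5 : X.re + Y.re ≤ ‖X + (starRingEnd ℂ) Y‖ := by
    have := Complex.re_le_norm (X + (starRingEnd ℂ) Y)
    simpa using this
  have h6 : (1 - ‖c‖ ^ 2) * (X.re + Y.re) ^ 2 ≤ 4 * X.re * Y.re := by
    have e1 : ‖X - Y‖ ^ 2 ≤ ‖c‖ ^ 2 * ‖X + (starRingEnd ℂ) Y‖ ^ 2 := by
      rw [← mul_pow]
      exact pow_le_pow_left₀ (norm_nonneg _) h3 2
    have e2 : (X.re + Y.re) ^ 2 ≤ ‖X + (starRingEnd ℂ) Y‖ ^ 2 :=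
      pow_le_pow_left₀ (by positivity) h5 2
    have e3 : 0 ≤ 1 - ‖c‖ ^ 2 := by nlinarith
    nlinarith [mul_le_mul_of_nonneg_left e2 e3]
  -- ((1+c) X - (1-c) Y) ((1-c) X - (1+c) Y) ≤ 0
  have h7 : ((1 + ‖c‖) * X.re - (1 - ‖c‖) * Y.re) * ((1 - ‖c‖) * X.re - (1 + ‖c‖) * Y.re) ≤ 0 := by
    nlinarith
  by_contra hcon
  push Not at hcon
  have h8 : (1 + ‖c‖) * X.re - (1 - ‖c‖) * Y.re < 0 := by linarith
  have h9 : (1 - ‖c‖) * X.re - (1 + ‖c‖) * Y.re < 0 := by nlinarith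
  nlinarith [mul_pos_of_neg_of_neg h8 h9]

/-- sharp Harnack inequality for two points on one radius of the unit disc -/
theorem harnack_radius {G : ℂ → ℂ} (hG : DifferentiableOn ℂ G (ball 0 1))
    (hpos : ∀ z ∈ ball (0 : ℂ) 1, 0 < (G z).re) {a b : ℝ} (ha : 0 ≤ a) (hab : a ≤ b) (hb : b < 1) :
    ((1 + a) * (1 - b)) * (G a).re ≤ ((1 + b) * (1 - a)) * (G b).re := by
  have ha1 : a < 1 := lt_of_le_of_lt hab hb
  have hden : ∀ w ∈ ball (0 : ℂ) 1, 1 + (a : ℂ) * w ≠ 0 := by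
    intro w hw h
    rw [mem_ball_zero_iff] at hw
    have h1 : (a : ℂ) * w = -1 := by linear_combination h
    have h2 : ‖(a : ℂ) * w‖ = 1 := by rw [h1]; simp
    rw [norm_mul, Complex.norm_real, Real.norm_eq_abs, abs_of_nonneg ha] at h2
    nlinarith [norm_nonneg w]
  set τ : ℂ → ℂ := fun w => (w + a) / (1 + a * w) with hτ
  have hτd : DifferentiableOn ℂ τ (ball 0 1) :=
    (differentiableOn_id.add (differentiableOn_const _)).div
      ((differentiableOn_const _).add ((differentiableOn_const _).mul differentiableOn_id)) hden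
  have hτm : MapsTo τ (ball 0 1) (ball 0 1) := by
    intro w hw
    have hw1 : ‖w‖ < 1 := mem_ball_zero_iff.mp hw
    rw [mem_ball_zero_iff, hτ]
    simp only
    have h1 : 0 < ‖1 + (a : ℂ) * w‖ := norm_pos_iff.mpr (hden w hw)
    rw [norm_div, div_lt_one h1]
    have h2 : ‖1 + (a : ℂ) * w‖ ^ 2 - ‖w + a‖ ^ 2 = (1 - a ^ 2) * (1 - ‖w‖ ^ 2) := by
      rw [← Complex.normSq_eq_norm_sq, ← Complex.normSq_eq_norm_sq, ← Complex.normSq_eq_norm_sq,
        normSq_apply, normSq_apply, normSq_apply]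
      simp only [add_re, add_im, mul_re, mul_im, ofReal_re, ofReal_im, one_re, one_im]
      ring
    have h3 : 0 < (1 - a ^ 2) * (1 - ‖w‖ ^ 2) := by
      have := norm_nonneg w
      apply mul_pos <;> nlinarith
    nlinarith [norm_nonneg (w + (a : ℂ))]
  set c : ℝ := (b - a) / (1 - a * b) with hcdef
  have hab1 : 0 < 1 - a * b := by nlinarith
  have hc0 : 0 ≤ c := div_nonneg (by linarith) hab1.le
  have hc1 : c < 1 := by
    rw [hcdef, div_lt_one hab1]
    nlinarith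
  have hcb : (c : ℂ) ∈ ball (0 : ℂ) 1 := by
    rw [mem_ball_zero_iff, Complex.norm_real, Real.norm_eq_abs, abs_of_nonneg hc0]
    exact hc1
  have hτ0 : τ 0 = a := by simp [hτ]
  have hτc : τ c = b := by
    have h1 : (1 - (a : ℂ) * b) ≠ 0 := by
      exact_mod_cast hab1.ne'
    have h2 : 1 + (a : ℂ) * c ≠ 0 := hden _ hcb
    simp only [hτ]
    rw [div_eq_iff h2]
    have h3 : (c : ℂ) * (1 - (a : ℂ) * b) = b - a := by
      rw [hcdef]
      push_cast
      exact div_mul_cancel₀ _ h1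
    linear_combination h3
  have h := harnack_centre (H := fun w => G (τ w)) (hG.comp hτd hτm)
    (fun w hw => hpos _ (hτm hw)) hcb
  simp only [hτ0, hτc] at h
  rw [Complex.norm_real, Real.norm_eq_abs, abs_of_nonneg hc0] at h
  have hcm : c * (1 - a * b) = b - a := div_mul_cancel₀ _ hab1.ne'
  have e1 : 1 - c = (1 + a) * (1 - b) / (1 - a * b) := by
    rw [eq_div_iff hab1.ne']; linear_combination (-1 : ℝ) * hcm
  have e2 : 1 + c = (1 + b) * (1 - a) / (1 - a * b) := by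
    rw [eq_div_iff hab1.ne']; linear_combination hcm
  rw [e1, e2, div_mul_eq_mul_div, div_mul_eq_mul_div, div_le_div_iff_of_pos_right hab1] at h
  exact h

/-- the constant of one Schottky step -/
noncomputable def C0 : ℝ := Real.log (2 * SB 1 (1 / 2))

theorem C0_pos : 0 < C0 := by
  apply Real.log_pos
  have := one_le_SB 1 (1 / 2)
  linarith

/-- one Schottky step, very negative `log ‖f‖` -/
theorem step_neg {f : ℂ → ℂ} {c z : ℂ} {R : ℝ} (hR : 0 < R) (hf : DifferentiableOn ℂ f (ball c R))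
    (h0 : ∀ z ∈ ball c R, f z ≠ 0) (h1 : ∀ z ∈ ball c R, f z ≠ 1) (hz : ‖z - c‖ ≤ R / 8)
    (hc : 0 ≤ -Real.log ‖f c‖) : (-Real.log ‖f c‖ + C0) / 2 ≤ -Real.log ‖f z‖ + C0 := by
  have hcb : c ∈ ball c R := mem_ball_self hR
  have hzb : z ∈ ball c R := by rw [mem_ball, dist_eq_norm]; linarith
  have hfc : 0 < ‖f c‖ := norm_pos_iff.mpr (h0 c hcb)
  have hfz : 0 < ‖f z‖ := norm_pos_iff.mpr (h0 z hzb)
  have hc1 : ‖f c‖ ≤ 1 := by
    have h2 : Real.log ‖f c‖ ≤ 0 := by linarith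
    rwa [Real.log_nonpos_iff hfc.le] at h2
  have h3 := schottky_small hf h0 h1 hR hc1 hz
  have hS : 0 < SB 1 (1 / 2) := SB_pos _ _
  have h4 := Real.log_le_log (by positivity) h3
  rw [Real.log_pow, Real.log_mul (by positivity) hfc.ne'] at h4
  push_cast at h4
  unfold C0
  have h5 : 0 < Real.log (2 * SB 1 (1 / 2)) := C0_pos
  linarith

/-- a chain of Schottky steps along a segment -/
theorem chain_neg {f : ℂ → ℂ} {S : Set ℂ} (hS : Convex ℝ S) {σ : ℝ} (hσ : 0 < σ)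
    (hf : ∀ p ∈ S, DifferentiableOn ℂ f (ball p σ)) (h0 : ∀ p ∈ S, ∀ z ∈ ball p σ, f z ≠ 0)
    (h1 : ∀ p ∈ S, ∀ z ∈ ball p σ, f z ≠ 1) {p w : ℂ} (hp : p ∈ S) (hw : w ∈ S) {N : ℕ}
    (hN : 0 < N) (hd : ‖w - p‖ ≤ N * (σ / 8)) (hu : 2 ^ N * C0 ≤ -Real.log ‖f p‖) :
    ∀ i ≤ N, (-Real.log ‖f p‖ + C0) / 2 ^ i ≤
      -Real.log ‖f (p + ((i / N : ℝ) : ℂ) * (w - p))‖ + C0 := by
  have hmem : ∀ i ≤ N, p + ((i / N : ℝ) : ℂ) * (w - p) ∈ S := by
    intro i hi
    have hN' : (0 : ℝ) < N := by exact_mod_cast hN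
    have h2 : (0 : ℝ) ≤ i / N := by positivity
    have h3 : (i / N : ℝ) ≤ 1 := by
      rw [div_le_one hN']; exact_mod_cast hi
    have := hS.add_smul_sub_mem hp hw ⟨h2, h3⟩
    simpa [Complex.real_smul] using this
  have hN' : (0 : ℝ) < N := by exact_mod_cast hN
  have hC := C0_pos
  intro i
  induction i with
  | zero => intro _; simp
  | succ i ih =>
    intro hi
    have h2 := ih (by omega)
    have h3 : 0 ≤ -Real.log ‖f (p + ((i / N : ℝ) : ℂ) * (w - p))‖ := by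
      have h4 : C0 ≤ (-Real.log ‖f p‖ + C0) / 2 ^ i := by
        rw [le_div_iff₀ (by positivity)]
        have h5 : (2 : ℝ) ^ i ≤ 2 ^ N := pow_le_pow_right₀ (by norm_num) (by omega)
        nlinarith
      linarith
    have h5 := step_neg (z := p + (((i + 1 : ℕ) / N : ℝ) : ℂ) * (w - p)) hσ
      (hf _ (hmem i (by omega))) (h0 _ (hmem i (by omega))) (h1 _ (hmem i (by omega))) (by
        have e1 : p + (((i + 1 : ℕ) / N : ℝ) : ℂ) * (w - p) - (p + ((i / N : ℝ) : ℂ) * (w - p))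
            = ((1 / N : ℝ) : ℂ) * (w - p) := by
          push_cast
          ring
        rw [e1, norm_mul, Complex.norm_real, Real.norm_eq_abs, abs_of_nonneg (by positivity)]
        calc (1 / N : ℝ) * ‖w - p‖ ≤ (1 / N : ℝ) * (N * (σ / 8)) := by gcongr
          _ = σ / 8 := by field_simp) h3
    refine le_trans (le_of_eq ?_) ((div_le_div_of_nonneg_right h2 (by norm_num : (0:ℝ) ≤ 2)).trans h5)
    rw [pow_succ]
    field_simp

theorem chain_neg' {f : ℂ → ℂ} {S : Set ℂ} (hS : Convex ℝ S) {σ : ℝ} (hσ : 0 < σ)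
    (hf : ∀ p ∈ S, DifferentiableOn ℂ f (ball p σ)) (h0 : ∀ p ∈ S, ∀ z ∈ ball p σ, f z ≠ 0)
    (h1 : ∀ p ∈ S, ∀ z ∈ ball p σ, f z ≠ 1) {p w : ℂ} (hp : p ∈ S) (hw : w ∈ S) {N : ℕ}
    (hN : 0 < N) (hd : ‖w - p‖ ≤ N * (σ / 8)) (hu : 2 ^ N * C0 ≤ -Real.log ‖f p‖) :
    0 < -Real.log ‖f w‖ := by
  have h2 := chain_neg hS hσ hf h0 h1 hp hw hN hd hu N le_rfl
  have hN' : (N : ℝ) ≠ 0 := by exact_mod_cast hN.ne'
  rw [div_self hN'] at h2
  have e1 : p + ((1 : ℝ) : ℂ) * (w - p) = w := by push_cast; ring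
  rw [e1] at h2
  have hC := C0_pos
  have h3 : C0 < (-Real.log ‖f p‖ + C0) / 2 ^ N := by
    rw [lt_div_iff₀ (by positivity)]
    nlinarith
  linarith

/-- the threshold of the sharp octave inequality -/
noncomputable def K0 : ℝ := 2 ^ 640000 * C0

theorem octave_neg {f : ℂ → ℂ} (hf : DifferentiableOn ℂ f (ball (100 * I) (99.995)))
    (h0 : ∀ z ∈ ball (100 * I) (99.995 : ℝ), f z ≠ 0)
    (h1 : ∀ z ∈ ball (100 * I) (99.995 : ℝ), f z ≠ 1) (hK : K0 ≤ -Real.log ‖f I‖) :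
    -Real.log ‖f I‖ ≤ 2.03 * (-Real.log ‖f (I / 2)‖) ∧ 0 < -Real.log ‖f (I / 2)‖ := by
  set S : Set ℂ := ball (100 * I) (99.99 : ℝ) with hS
  have hsub : ∀ p ∈ S, ball p (0.005 : ℝ) ⊆ ball (100 * I) (99.995 : ℝ) := by
    intro p hp
    apply ball_subset_ball'
    rw [hS, mem_ball] at hp
    linarith
  have hIS : I ∈ S := by
    rw [hS, mem_ball, dist_eq_norm]
    have : I - 100 * I = -(99 * I) := by ring
    rw [this, norm_neg, norm_mul, Complex.norm_I]
    norm_num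
  have hI2S : I / 2 ∈ S := by
    rw [hS, mem_ball, dist_eq_norm]
    have : I / 2 - 100 * I = -((199 / 2) * I) := by ring
    rw [this, norm_neg, norm_mul, Complex.norm_I]
    norm_num
  have hpos : ∀ w ∈ S, 0 < -Real.log ‖f w‖ := by
    intro w hw
    refine chain_neg' (convex_ball _ _) (σ := 0.005) (by norm_num)
      (fun p hp => hf.mono (hsub p hp)) (fun p hp z hz => h0 z (hsub p hp hz))
      (fun p hp z hz => h1 z (hsub p hp hz)) hIS hw (N := 640000) (by norm_num) ?_ hK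
    have e1 : ‖w - I‖ ≤ ‖w - 100 * I‖ + ‖100 * I - I‖ := norm_sub_le_norm_sub_add_norm_sub _ _ _
    rw [hS, mem_ball, dist_eq_norm] at hw
    have e2 : ‖100 * I - I‖ = 99 := by
      have : 100 * I - I = 99 * I := by ring
      rw [this, norm_mul, Complex.norm_I]
      norm_num
    rw [e2] at e1
    norm_num
    linarith
  have hSb : S ⊆ ball (100 * I) (99.995 : ℝ) := ball_subset_ball (by norm_num)
  obtain ⟨l, hl, -, hlf⟩ := exists_log (a := Complex.log (f (100 * I))) (r := 99.99) (c := 100 * I)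
    (by norm_num) (hf.mono hSb) (fun z hz => h0 z (hSb hz))
    (Complex.exp_log (h0 _ (mem_ball_self (by norm_num))))
  have hre : ∀ y ∈ S, (l y).re = Real.log ‖f y‖ := by
    intro y hy
    rw [← hlf y hy, Complex.norm_exp, Real.log_exp]
  set G : ℂ → ℂ := fun w => -l (100 * I - 99.99 * I * w) with hG
  have hmaps : MapsTo (fun w : ℂ => 100 * I - 99.99 * I * w) (ball 0 1) S := by
    intro w hw
    rw [mem_ball_zero_iff] at hw
    rw [hS, mem_ball, dist_eq_norm]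
    have e1 : 100 * I - 99.99 * I * w - 100 * I = -((99.99 : ℝ) * (I * w)) := by
      push_cast; ring
    rw [e1, norm_neg, norm_mul, norm_mul, Complex.norm_I, Complex.norm_real, Real.norm_eq_abs,
      abs_of_pos (by norm_num)]
    nlinarith
  have hGd : DifferentiableOn ℂ G (ball 0 1) :=
    (hl.comp (by fun_prop) hmaps).neg
  have hGp : ∀ z ∈ ball (0 : ℂ) 1, 0 < (G z).re := by
    intro z hz
    rw [hG]
    simp only [neg_re]
    rw [hre _ (hmaps hz)]
    exact hpos _ (hmaps hz)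
  have h := harnack_radius hGd hGp (a := 99 / 99.99) (b := 99.5 / 99.99) (by norm_num)
    (by norm_num) (by norm_num)
  have ea : 100 * I - 99.99 * I * ((99 / 99.99 : ℝ) : ℂ) = I := by
    push_cast
    ring_nf
  have eb : 100 * I - 99.99 * I * ((99.5 / 99.99 : ℝ) : ℂ) = I / 2 := by
    push_cast
    ring_nf
  simp only [hG, ea, eb, neg_re, hre _ hIS, hre _ hI2S] at h
  refine ⟨?_, hpos _ hI2S⟩
  have h2 := hpos _ hI2S
  norm_num at h ⊢
  nlinarith

/-- scaled form, both signs -/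
theorem octave {f : ℂ → ℂ} {p : ℂ} {h : ℝ} (hh : 0 < h)
    (hf : DifferentiableOn ℂ f (ball (p + 100 * h * I) (99.995 * h)))
    (h0 : ∀ z ∈ ball (p + 100 * h * I) (99.995 * h), f z ≠ 0)
    (h1 : ∀ z ∈ ball (p + 100 * h * I) (99.995 * h), f z ≠ 1)
    (hK : K0 ≤ |Real.log ‖f (p + h * I)‖|) :
    |Real.log ‖f (p + h * I)‖| ≤ 2.03 * |Real.log ‖f (p + (h / 2 : ℝ) * I)‖| ∧
      0 < Real.log ‖f (p + h * I)‖ * Real.log ‖f (p + (h / 2 : ℝ) * I)‖ := by
  have hmaps : MapsTo (fun w : ℂ => p + h * w) (ball (100 * I) 99.995)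
      (ball (p + 100 * h * I) (99.995 * h)) := by
    intro w hw
    rw [mem_ball, dist_eq_norm] at hw ⊢
    have e1 : p + h * w - (p + 100 * h * I) = (h : ℂ) * (w - 100 * I) := by ring
    rw [e1, norm_mul, Complex.norm_real, Real.norm_eq_abs, abs_of_pos hh]
    nlinarith
  have hg : DifferentiableOn ℂ (fun w => f (p + h * w)) (ball (100 * I) 99.995) :=
    hf.comp (by fun_prop) hmaps
  have e2 : p + h * (I / 2) = p + ((h / 2 : ℝ) : ℂ) * I := by push_cast; ring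
  have hK0 : 0 < K0 := by
    unfold K0
    have := C0_pos
    positivity
  rcases le_or_gt (Real.log ‖f (p + h * I)‖) 0 with h2 | h2
  · rw [abs_of_nonpos h2] at hK ⊢
    have h3 := octave_neg hg (fun z hz => h0 _ (hmaps hz)) (fun z hz => h1 _ (hmaps hz)) hK
    simp only [e2] at h3
    obtain ⟨h3, h4⟩ := h3
    rw [abs_of_neg (by linarith)]
    exact ⟨h3, mul_pos_of_neg_of_neg (by linarith) (by linarith)⟩
  · rw [abs_of_pos h2] at hK ⊢
    have h3 := octave_neg (f := fun w => (f (p + h * w))⁻¹)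
      (hg.inv fun z hz => h0 _ (hmaps hz)) (fun z hz => inv_ne_zero (h0 _ (hmaps hz)))
      (fun z hz h5 => h1 _ (hmaps hz) (by simpa using h5))
      (by rw [norm_inv, Real.log_inv, neg_neg]; exact hK)
    simp only [e2, norm_inv, Real.log_inv, neg_neg] at h3
    obtain ⟨h3, h4⟩ := h3
    rw [abs_of_pos h4]
    exact ⟨h3, mul_pos h2 h4⟩

/-- **the sequence of octave values satisfies `Seq`** (growth `2.03` per octave, constant sign) -/
theorem seq_of_omit {f : ℂ → ℂ} {p : ℂ} {h : ℝ} (hh : 0 < h)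
    (hf : ∀ n : ℕ, DifferentiableOn ℂ f (ball (p + 100 * ((h / 2 ^ n : ℝ) : ℂ) * I)
      (99.995 * (h / 2 ^ n))))
    (h0 : ∀ n : ℕ, ∀ z ∈ ball (p + 100 * ((h / 2 ^ n : ℝ) : ℂ) * I) (99.995 * (h / 2 ^ n)), f z ≠ 0)
    (h1 : ∀ n : ℕ, ∀ z ∈ ball (p + 100 * ((h / 2 ^ n : ℝ) : ℂ) * I) (99.995 * (h / 2 ^ n)), f z ≠ 1)
    {K : ℝ} (hK : K0 ≤ K) :
    Seq (fun n => Real.log ‖f (p + ((h / 2 ^ n : ℝ) : ℂ) * I)‖) K 2.03 where
  K0 := by
    have h2 : 0 < K0 := by
      unfold K0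
      have := C0_pos
      positivity
    linarith
  A1 := by norm_num
  sign := by
    intro n hn _
    have h2 := (octave (by positivity : 0 < h / 2 ^ n) (hf n) (h0 n) (h1 n) (hK.trans hn.le)).2
    have e1 : h / 2 ^ n / 2 = h / 2 ^ (n + 1) := by rw [pow_succ]; field_simp
    rw [e1] at h2
    exact h2
  grow := by
    intro n hn
    have h2 := (octave (by positivity : 0 < h / 2 ^ n) (hf n) (h0 n) (h1 n) (hK.trans hn.le)).1
    have e1 : h / 2 ^ n / 2 = h / 2 ^ (n + 1) := by rw [pow_succ]; field_simp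
    rw [e1] at h2
    refine h2.trans ?_
    gcongr
    exact le_max_left _ _

/-- `D = 2.03^(1/7)`: growth `D^7 = 2.03`, weight `D^(-6) ≤ 2^(-7/8)` -/
noncomputable def Dc : ℝ := (2.03 : ℝ) ^ ((1 : ℝ) / 7)

theorem Dc_pow : Dc ^ (3 * 2 + 1) = 2.03 := by
  unfold Dc
  rw [← Real.rpow_natCast, ← Real.rpow_mul (by norm_num)]
  norm_num

theorem one_lt_Dc : 1 < Dc := by
  unfold Dc
  exact Real.one_lt_rpow (by norm_num) (by norm_num)

/-- `D^(-6) ≤ 2^(-7/8)` in the form `D^48 ≥ 2^7` -/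
theorem Dc_weight : (2 : ℝ) ^ 7 ≤ Dc ^ 48 := by
  have h1 : (Dc ^ 48) ^ 7 = (2.03 : ℝ) ^ 48 := by
    have := Dc_pow
    norm_num at this
    rw [← pow_mul, show 48 * 7 = 7 * 48 by norm_num, pow_mul, this]
    norm_num
  have h2 : ((2 : ℝ) ^ 7) ^ 7 ≤ (Dc ^ 48) ^ 7 := by
    rw [h1]
    norm_num
  have h3 : 0 < Dc := by linarith [one_lt_Dc]
  exact le_of_pow_le_pow_left₀ (by norm_num) (by positivity) h2

end Vale.Agent.P097.H226
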