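import Vale.Agent.P097.H226.Targ2
import Vale.Agent.P097.H226.Harn

/-!
Steps (3) and (4) of 589 note 13190, abstract part: octave bounds on the boundary of a half disc,
and the sign preserving Schottky chain in the sawtooth.
-/

open Complex Metric Set Filter Topology Finset
open Vale.Agent.P097.H699 Vale.Agent.P097.H264

namespace Vale.Agent.P097.H226

theorem exists_oct {r y : ℝ} (hr : 0 < r) (hy : r ≤ y) :
    ∃ k : ℕ, 2 ^ k * r ≤ y ∧ y < 2 ^ (k + 1) * r := by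
  have h1 : (1 : ℝ) ≤ y / r := by rwa [le_div_iff₀ hr, one_mul]
  obtain ⟨k, h2, h3⟩ := exists_nat_pow_near h1 (one_lt_two)
  refine ⟨k, ?_, ?_⟩
  · rwa [le_div_iff₀ hr] at h2
  · rwa [div_lt_iff₀ hr] at h3

/-- `ζ` is in the octave `k` -/
def Oct (r : ℝ) (k : ℕ) (ζ : ℂ) : Prop := ‖ζ‖ < 2 ^ (k + 1) * r ∧ (k = 0 ∨ 2 ^ k * r ≤ ‖ζ‖)

theorem exists_Oct {r : ℝ} (hr : 0 < r) (ζ : ℂ) : ∃ k, Oct r k ζ := by
  rcases lt_or_ge ‖ζ‖ r with h | h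
  · exact ⟨0, by simp; linarith, Or.inl rfl⟩
  · obtain ⟨k, h1, h2⟩ := exists_oct hr h
    exact ⟨k, h2, Or.inr h1⟩

/-- shifted data: `a 0 = b 0`, `a (k+1) = b k` -/
def sh (b : ℕ → ℝ) : ℕ → ℝ
  | 0 => b 0
  | k + 1 => b k

theorem sh_nn {b : ℕ → ℝ} (hb : ∀ k, 0 ≤ b k) (k : ℕ) : 0 ≤ sh b k := by
  cases k with
  | zero => exact hb 0
  | succ k => exact hb k

theorem oct_major_lower {ρ r : ℝ} (hr : 0 < r) {b : ℕ → ℝ} (hb : ∀ k, 0 ≤ b k) {n : ℕ}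
    (hn : ρ < 2 ^ n * r) {ζ : ℂ} (h1 : ‖ζ‖ ≤ ρ) (h2 : 0 ≤ ζ.im) :
    ∃ k, Oct r k ζ ∧ (k = 0 ∨ k < n) ∧ b k ≤ (mj r (sh b) n ζ).re := by
  obtain ⟨k, hk⟩ := exists_Oct hr ζ
  refine ⟨k, hk, ?_, ?_⟩
  · rcases hk.2 with h3 | h3
    · exact Or.inl h3
    · right
      by_contra hcon
      push Not at hcon
      have h4 : (2 : ℝ) ^ n ≤ 2 ^ k := pow_le_pow_right₀ (by norm_num) hcon
      have h5 : 2 ^ n * r ≤ 2 ^ k * r := by gcongr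
      linarith
  · rcases hk.2 with h3 | h3
    · subst h3
      exact mj_lower0 hr (sh_nn hb) h2
    · have hkn : k < n := by
        by_contra hcon
        push Not at hcon
        have h4 : (2 : ℝ) ^ n ≤ 2 ^ k := pow_le_pow_right₀ (by norm_num) hcon
        have h5 : 2 ^ n * r ≤ 2 ^ k * r := by gcongr
        linarith
      have h4 := mj_lower hr (sh_nn hb) h2 hkn h3
      have h5 := hb 0
      have h6 : sh b 0 + sh b (k + 1) = b 0 + b k := rfl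
      linarith

/-- **octave bounds on the boundary give a bound inside** -/
theorem oct_bound {f : ℂ → ℂ} {ρ r : ℝ} (hr : 0 < r) (hf : DiffContOnCl ℂ f (HD ρ)) {b : ℕ → ℝ}
    (hb : ∀ k, 0 ≤ b k) {n : ℕ} (hn : ρ < 2 ^ n * r)
    (h : ∀ ζ ∈ frontier (HD ρ), ∀ k, Oct r k ζ → ‖f ζ‖ ≤ Real.exp (b k)) {ζ : ℂ}
    (hζ : ζ ∈ closure (HD ρ)) :
    ‖f ζ‖ ≤ Real.exp (b 0 + 2 * (‖ζ‖ / r) * ∑ k ∈ range n, b k * (1 / 2) ^ k) := by
  have hsub : HD ρ ⊆ {ζ | 0 ≤ ζ.im} := fun z hz => hz.2.le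
  have h1 := major HD_bdd hf (mj_dc hr hsub (a := sh b) (n := n)) (fun z hz => by
    obtain ⟨hz0, hz1, -⟩ := HD_frontier hz
    obtain ⟨k, hk, -, hk'⟩ := oct_major_lower hr hb hn hz0 hz1
    exact (h z hz k hk).trans (Real.exp_le_exp.mpr hk')) hζ
  exact h1.trans (Real.exp_le_exp.mpr (mj_upper hr (sh_nn hb) (HD_closure hζ).2))

/-- **incidence with octave bounds** -/
theorem oct_inc {m G : ℂ → ℂ} {ρ r c : ℝ} (hr : 0 < r) (hm : DiffContOnCl ℂ m (HD ρ))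
    (hG : DiffContOnCl ℂ G (HD ρ)) {b : ℕ → ℝ} (hb : ∀ k, 0 ≤ b k) {n : ℕ} (hn : ρ < 2 ^ n * r)
    (h1 : ∀ ζ ∈ frontier (HD ρ), ∀ k, Oct r k ζ → -(b k) ≤ (G ζ).re)
    (h2 : ∀ ζ ∈ frontier (HD ρ), ‖m ζ‖ ≤ Real.exp (c + |(G ζ).re|)) {ζ : ℂ}
    (hζ : ζ ∈ closure (HD ρ)) :
    ‖m ζ‖ ≤ Real.exp (c + (G ζ).re +
      2 * (b 0 + 2 * (‖ζ‖ / r) * ∑ k ∈ range n, b k * (1 / 2) ^ k)) := by
  have hsub : HD ρ ⊆ {ζ | 0 ≤ ζ.im} := fun z hz => hz.2.le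
  have h3 := incidence (c := c) HD_bdd hm hG (mj_dc hr hsub (a := sh b) (n := n))
    (fun z hz => (sh_nn hb 0).trans (mj_lower0 hr (sh_nn hb) (HD_frontier hz).2.1))
    (fun z hz => by
      obtain ⟨hz0, hz1, -⟩ := HD_frontier hz
      obtain ⟨k, hk, -, hk'⟩ := oct_major_lower hr hb hn hz0 hz1
      have := h1 z hz k hk
      linarith) h2 hζ
  refine h3.trans (Real.exp_le_exp.mpr ?_)
  have h4 := mj_upper (n := n) hr (sh_nn hb) (HD_closure hζ).2 (ζ := ζ)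
  have h5 : sh b 0 = b 0 := rfl
  have h6 : ∀ k, sh b (k + 1) = b k := fun k => rfl
  simp only [h5, h6] at h4
  linarith

/-- `LogOm` is symmetric under `g ↦ -g` -/
theorem logOm_neg {E : Type*} [NormedAddCommGroup E] [NormedSpace ℂ E] {U : Set E} {g : E → ℂ}
    (h : LogOm U g) : LogOm U (fun z => -g z) := by
  refine ⟨h.1.neg, fun z hz h1 => h.2 z hz ?_⟩
  have h2 : Complex.exp (-g z) = 1 := h1
  rw [Complex.exp_neg, inv_eq_one] at h2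
  exact h2

end Vale.Agent.P097.H226
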