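import Mathlib

/-!
Disc majorants (rows (3), (4) of the (A4) block, 589 note 13190) without harmonic measure.

`P R ζ = 1 - Re (R / (R - i ζ))` is an explicit harmonic function on the closed upper half plane,
`0 ≤ P ≤ 1`, `P ≥ 1/2` iff `R ≤ |ζ|`, `P ≤ |ζ| / R`. Only the maximum modulus principle is used.
-/

open Finset Complex Metric Set

namespace Vale.Agent.P097.H226

/-- holomorphic function with real part `P R` -/
noncomputable def pc (R : ℝ) (ζ : ℂ) : ℂ := 1 - R / (R - I * ζ)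

/-- the harmonic function `P R` -/
noncomputable def P (R : ℝ) (ζ : ℂ) : ℝ := (pc R ζ).re

theorem den_ne {R : ℝ} {ζ : ℂ} (hζ : -R < ζ.im) : (R : ℂ) - I * ζ ≠ 0 := by
  intro h
  have := congrArg Complex.re h
  simp at this
  linarith

theorem P_eq {R : ℝ} (hR : 0 < R) {ζ : ℂ} (hζ : 0 ≤ ζ.im) :
    P R ζ = (ζ.im * R + (ζ.re ^ 2 + ζ.im ^ 2)) / (R ^ 2 + 2 * R * ζ.im + (ζ.re ^ 2 + ζ.im ^ 2)) := by
  have h1 : 0 < R ^ 2 + 2 * R * ζ.im + (ζ.re ^ 2 + ζ.im ^ 2) := by positivity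
  have h2 : ((R : ℂ) / (R - I * ζ)).re = R * (R + ζ.im) / ((R + ζ.im) ^ 2 + ζ.re ^ 2) := by
    rw [Complex.div_re]
    simp only [ofReal_re, ofReal_im, sub_re, sub_im, mul_re, mul_im, I_re, I_im, normSq_apply]
    ring
  unfold P pc
  rw [Complex.sub_re, h2, Complex.one_re]
  have h3 : (R + ζ.im) ^ 2 + ζ.re ^ 2 ≠ 0 := by
    have : 0 < (R + ζ.im) ^ 2 + ζ.re ^ 2 := by positivity
    exact this.ne'
  rw [eq_div_iff h1.ne']
  field_simp
  ring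

theorem P_nonneg {R : ℝ} (hR : 0 < R) {ζ : ℂ} (hζ : 0 ≤ ζ.im) : 0 ≤ P R ζ := by
  rw [P_eq hR hζ]
  positivity

theorem P_le_one {R : ℝ} (hR : 0 < R) {ζ : ℂ} (hζ : 0 ≤ ζ.im) : P R ζ ≤ 1 := by
  rw [P_eq hR hζ]
  have h1 : 0 < R ^ 2 + 2 * R * ζ.im + (ζ.re ^ 2 + ζ.im ^ 2) := by positivity
  rw [div_le_one h1]
  nlinarith [mul_nonneg hζ hR.le]

theorem norm_sq_eq (ζ : ℂ) : ζ.re ^ 2 + ζ.im ^ 2 = ‖ζ‖ ^ 2 := by
  rw [← Complex.normSq_eq_norm_sq, normSq_apply]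
  ring

theorem half_le_P {R : ℝ} (hR : 0 < R) {ζ : ℂ} (hζ : 0 ≤ ζ.im) (h : R ≤ ‖ζ‖) : 1 / 2 ≤ P R ζ := by
  rw [P_eq hR hζ, norm_sq_eq]
  have h1 : 0 < R ^ 2 + 2 * R * ζ.im + ‖ζ‖ ^ 2 := by positivity
  rw [div_le_div_iff₀ (by norm_num) h1]
  nlinarith [norm_nonneg ζ]

theorem P_le_div {R : ℝ} (hR : 0 < R) {ζ : ℂ} (hζ : 0 ≤ ζ.im) : P R ζ ≤ ‖ζ‖ / R := by
  rw [P_eq hR hζ, norm_sq_eq]
  have h1 : 0 < R ^ 2 + 2 * R * ζ.im + ‖ζ‖ ^ 2 := by positivity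
  rw [div_le_div_iff₀ h1 hR]
  set t := ‖ζ‖ with ht
  set y := ζ.im with hy
  have ht0 : 0 ≤ t := norm_nonneg ζ
  have hyt : y ≤ t := (le_abs_self _).trans (Complex.abs_im_le_norm ζ)
  -- (t - y) R² - R t (t - 2 y) + t³ ≥ 0
  rcases le_or_gt t (2 * y) with h2 | h2
  · nlinarith [mul_nonneg (sub_nonneg.mpr hyt) (sq_nonneg R), mul_nonneg (mul_nonneg hR.le ht0)
      (sub_nonneg.mpr h2), mul_nonneg ht0 (sq_nonneg t)]
  · -- t > 2 y: (t - y) ≥ t/2, t - 2y ≤ t : t/2 R² - R t² + t³ ≥ t/2 (R - t)²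
    have h3 : 0 ≤ t * (R - t) ^ 2 := by positivity
    nlinarith [mul_nonneg (show 0 ≤ t - 2 * y by linarith) (sq_nonneg R),
      mul_nonneg (mul_nonneg hR.le ht0) hζ, mul_nonneg ht0 (sq_nonneg t)]

theorem pc_diff {R : ℝ} (hR : 0 < R) : DifferentiableOn ℂ (pc R) {ζ : ℂ | -R < ζ.im} := by
  intro ζ hζ
  have h := den_ne hζ
  unfold pc
  apply DifferentiableAt.differentiableWithinAt
  fun_prop (disch := exact h)

/-- **maximum modulus with a holomorphic majorant** -/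
theorem major {f g : ℂ → ℂ} {D : Set ℂ} (hD : Bornology.IsBounded D) (hf : DiffContOnCl ℂ f D)
    (hg : DiffContOnCl ℂ g D) (h : ∀ z ∈ frontier D, ‖f z‖ ≤ Real.exp (g z).re) {z : ℂ}
    (hz : z ∈ closure D) : ‖f z‖ ≤ Real.exp (g z).re := by
  have he : DiffContOnCl ℂ (fun z => Complex.exp (-g z)) D :=
    ⟨hg.differentiableOn.neg.cexp, (hg.continuousOn.neg).cexp⟩
  have hF : DiffContOnCl ℂ (fun z => f z * Complex.exp (-g z)) D :=
    ⟨hf.differentiableOn.mul he.differentiableOn, hf.continuousOn.mul he.continuousOn⟩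
  have key : ‖f z * Complex.exp (-g z)‖ ≤ 1 := by
    apply Complex.norm_le_of_forall_mem_frontier_norm_le hD hF _ hz
    intro w hw
    rw [norm_mul, Complex.norm_exp, Complex.neg_re, Real.exp_neg]
    have := h w hw
    have h2 := Real.exp_pos (g w).re
    rw [← div_eq_mul_inv, div_le_one h2]
    exact this
  rw [norm_mul, Complex.norm_exp, Complex.neg_re, Real.exp_neg] at key
  have h2 := Real.exp_pos (g z).re
  rw [← div_eq_mul_inv, div_le_one h2] at key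
  exact key

/-- the half disc -/
def HD (ρ : ℝ) : Set ℂ := {ζ | ‖ζ‖ < ρ ∧ 0 < ζ.im}

theorem HD_bdd {ρ : ℝ} : Bornology.IsBounded (HD ρ) :=
  (Metric.isBounded_ball (x := (0 : ℂ)) (r := ρ)).subset fun ζ hζ => by
    rw [mem_ball_zero_iff]; exact hζ.1

theorem HD_open {ρ : ℝ} : IsOpen (HD ρ) :=
  (isOpen_lt continuous_norm continuous_const).inter (isOpen_lt continuous_const continuous_im)

theorem HD_closure {ρ : ℝ} : closure (HD ρ) ⊆ {ζ | ‖ζ‖ ≤ ρ ∧ 0 ≤ ζ.im} := by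
  apply closure_minimal
  · intro ζ hζ
    exact ⟨hζ.1.le, hζ.2.le⟩
  · exact (isClosed_le continuous_norm continuous_const).inter
      (isClosed_le continuous_const continuous_im)

theorem HD_frontier {ρ : ℝ} {ζ : ℂ} (h : ζ ∈ frontier (HD ρ)) :
    ‖ζ‖ ≤ ρ ∧ 0 ≤ ζ.im ∧ (ζ.im = 0 ∨ ‖ζ‖ = ρ) := by
  rw [frontier, HD_open.interior_eq] at h
  obtain ⟨h1, h2⟩ := HD_closure h.1
  refine ⟨h1, h2, ?_⟩
  by_contra hcon
  push Not at hcon
  exact h.2 ⟨lt_of_le_of_ne h1 hcon.2, lt_of_le_of_ne h2 (Ne.symm hcon.1)⟩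

/-- holomorphic majorant with octave data: `a 0 + 2 ∑ a (k+1) P (2^k r)` -/
noncomputable def mj (r : ℝ) (a : ℕ → ℝ) (n : ℕ) (ζ : ℂ) : ℂ :=
  a 0 + ∑ k ∈ range n, ((2 * a (k + 1) : ℝ) : ℂ) * pc (2 ^ k * r) ζ

theorem mj_re {r : ℝ} {a : ℕ → ℝ} {n : ℕ} {ζ : ℂ} :
    (mj r a n ζ).re = a 0 + ∑ k ∈ range n, 2 * a (k + 1) * P (2 ^ k * r) ζ := by
  unfold mj P
  rw [Complex.add_re, Complex.ofReal_re, Complex.re_sum]
  congr 1
  apply Finset.sum_congr rfl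
  intro k _
  rw [Complex.re_ofReal_mul]

theorem mj_dc {r : ℝ} (hr : 0 < r) {a : ℕ → ℝ} {n : ℕ} {D : Set ℂ} (hD : D ⊆ {ζ | 0 ≤ ζ.im}) :
    DiffContOnCl ℂ (mj r a n) D := by
  apply DifferentiableOn.diffContOnCl
  have hcl : closure D ⊆ {ζ | 0 ≤ ζ.im} :=
    closure_minimal hD (isClosed_le continuous_const continuous_im)
  intro ζ hζ
  have h0 := hcl hζ
  simp only [mem_ofPred_eq] at h0
  unfold mj
  apply DifferentiableAt.differentiableWithinAt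
  apply DifferentiableAt.const_add
  apply DifferentiableAt.fun_sum
  intro k _
  apply DifferentiableAt.const_mul
  have hR : 0 < 2 ^ k * r := by positivity
  exact ((pc_diff hR).differentiableAt
    ((isOpen_lt continuous_const continuous_im).mem_nhds (by simp only [mem_ofPred_eq]; linarith)))

theorem mj_lower {r : ℝ} (hr : 0 < r) {a : ℕ → ℝ} (ha : ∀ k, 0 ≤ a k) {n : ℕ} {ζ : ℂ}
    (hζ : 0 ≤ ζ.im) {k : ℕ} (hk : k < n) (hk' : 2 ^ k * r ≤ ‖ζ‖) :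
    a 0 + a (k + 1) ≤ (mj r a n ζ).re := by
  rw [mj_re]
  have h1 : 2 * a (k + 1) * P (2 ^ k * r) ζ ≤ ∑ k ∈ range n, 2 * a (k + 1) * P (2 ^ k * r) ζ := by
    apply Finset.single_le_sum (f := fun k => 2 * a (k + 1) * P (2 ^ k * r) ζ) _
      (Finset.mem_range.mpr hk)
    intro i _
    have := P_nonneg (R := 2 ^ i * r) (by positivity) hζ
    have := ha (i + 1)
    positivity
  have h2 := half_le_P (R := 2 ^ k * r) (by positivity) hζ hk'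
  have h3 := ha (k + 1)
  nlinarith

theorem mj_lower0 {r : ℝ} (hr : 0 < r) {a : ℕ → ℝ} (ha : ∀ k, 0 ≤ a k) {n : ℕ} {ζ : ℂ}
    (hζ : 0 ≤ ζ.im) : a 0 ≤ (mj r a n ζ).re := by
  rw [mj_re]
  have h1 : 0 ≤ ∑ k ∈ range n, 2 * a (k + 1) * P (2 ^ k * r) ζ := by
    apply Finset.sum_nonneg
    intro i _
    have := P_nonneg (R := 2 ^ i * r) (by positivity) hζ
    have := ha (i + 1)
    positivity
  linarith

theorem mj_upper {r : ℝ} (hr : 0 < r) {a : ℕ → ℝ} (ha : ∀ k, 0 ≤ a k) {n : ℕ} {ζ : ℂ}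
    (hζ : 0 ≤ ζ.im) :
    (mj r a n ζ).re ≤ a 0 + 2 * (‖ζ‖ / r) * ∑ k ∈ range n, a (k + 1) * (1 / 2) ^ k := by
  rw [mj_re, Finset.mul_sum]
  refine add_le_add le_rfl (Finset.sum_le_sum fun k _ => ?_)
  have h1 := P_le_div (R := 2 ^ k * r) (by positivity) hζ
  have h2 : ‖ζ‖ / (2 ^ k * r) = ‖ζ‖ / r * (1 / 2) ^ k := by
    rw [one_div, inv_pow]
    field_simp
  rw [h2] at h1
  have h3 := ha (k + 1)
  calc 2 * a (k + 1) * P (2 ^ k * r) ζ ≤ 2 * a (k + 1) * (‖ζ‖ / r * (1 / 2) ^ k) := by gcongr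
    _ = _ := by ring

/-- **(M1)** disc majorant: boundary bounds octave by octave (a boundary point `ζ` may use any octave
`k` with `2^k r ≤ |ζ|`) give a bound at every point of the half disc. -/
theorem disc_major {f : ℂ → ℂ} {ρ r : ℝ} (hr : 0 < r) (hf : DiffContOnCl ℂ f (HD ρ))
    {a : ℕ → ℝ} (ha : ∀ k, 0 ≤ a k) {n : ℕ}
    (hb : ∀ ζ ∈ frontier (HD ρ), ‖f ζ‖ ≤ Real.exp (a 0) ∨
      ∃ k < n, 2 ^ k * r ≤ ‖ζ‖ ∧ ‖f ζ‖ ≤ Real.exp (a 0 + a (k + 1))) {ζ : ℂ}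
    (hζ : ζ ∈ closure (HD ρ)) :
    ‖f ζ‖ ≤ Real.exp (a 0 + 2 * (‖ζ‖ / r) * ∑ k ∈ range n, a (k + 1) * (1 / 2) ^ k) := by
  have hsub : HD ρ ⊆ {ζ | 0 ≤ ζ.im} := fun z hz => hz.2.le
  have h1 := major HD_bdd hf (mj_dc hr hsub (a := a) (n := n)) (fun z hz => by
    have hz0 := (HD_frontier hz).2.1
    rcases hb z hz with h2 | ⟨k, hk, hk', h2⟩
    · exact h2.trans (Real.exp_le_exp.mpr (mj_lower0 hr ha hz0))
    · exact h2.trans (Real.exp_le_exp.mpr (mj_lower hr ha hz0 hk hk'))) hζ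
  exact h1.trans (Real.exp_le_exp.mpr (mj_upper hr ha (HD_closure hζ).2))

/-- **(M2)** incidence, abstract form: `U = Re G`, `H = Re h ≥ 0`, `U ≥ - H` on the boundary,
`|m| ≤ exp (c + |U|)` on the boundary. Then `|m| ≤ exp (c + U + 2 H)` everywhere. -/
theorem incidence {m G h : ℂ → ℂ} {D : Set ℂ} {c : ℝ} (hD : Bornology.IsBounded D)
    (hm : DiffContOnCl ℂ m D) (hG : DiffContOnCl ℂ G D) (hh : DiffContOnCl ℂ h D)
    (h0 : ∀ z ∈ frontier D, 0 ≤ (h z).re) (h1 : ∀ z ∈ frontier D, -(h z).re ≤ (G z).re)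
    (h2 : ∀ z ∈ frontier D, ‖m z‖ ≤ Real.exp (c + |(G z).re|)) {z : ℂ} (hz : z ∈ closure D) :
    ‖m z‖ ≤ Real.exp (c + (G z).re + 2 * (h z).re) := by
  have hg : DiffContOnCl ℂ (fun z => (c : ℂ) + G z + 2 * h z) D :=
    ((diffContOnCl_const.add hG).add (hh.const_smul (2 : ℂ)))
  have h3 := major hD hm hg (fun w hw => by
    refine (h2 w hw).trans (Real.exp_le_exp.mpr ?_)
    have e1 : ((c : ℂ) + G w + 2 * h w).re = c + (G w).re + 2 * (h w).re := by simp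
    rw [e1]
    rcases le_or_gt 0 (G w).re with h4 | h4
    · rw [abs_of_nonneg h4]
      have := h0 w hw
      linarith
    · rw [abs_of_neg h4]
      have := h1 w hw
      linarith) hz
  have e1 : ((c : ℂ) + G z + 2 * h z).re = c + (G z).re + 2 * (h z).re := by simp
  rwa [e1] at h3

end Vale.Agent.P097.H226
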