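import Vale.Agent.P097.H226.Major
import Vale.Agent.P097.H264.Saw2

/-!
Row (D5) of 589 note 13190: discs through all targets at scale `r`, from the Bishop disc.
-/

open Complex Metric Set Filter Topology
open Vale.Agent.P097.H699 Vale.Agent.P097.H264

namespace Vale.Agent.P097.H226

/-- output of the Bishop disc row at the foot `e`, in the coordinate `w = ζ - e.2` -/
structure Bish (A : Set (ℝ × ℝ)) (e : ℝ × ℝ) (ε c p : ℝ) (H : ℂ → ℂ) : Prop where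
  c0 : 0 < c
  dc : DiffContOnCl ℂ H (HD 1)
  nn : ∀ w : ℂ, ‖w‖ ≤ 1 → 0 ≤ w.im → 0 ≤ (H w).re
  bd : ∀ x : ℝ, |x| ≤ 1 → c * min (infDist (p - (H x).im, e.2 + x) A) 1 ≤ (H x).re
  ft : p - (H 0).im = e.1
  z0 : (H 0).re = 0
  vt : ∀ r : ℝ, 0 < r → r < 1 → ‖H (r * I) - H 0‖ ≤ ε * r
  hz : ∀ x : ℝ, |x| ≤ 1 → ‖H x - H 0‖ ≤ ε * |x|

/-- the sector term `(r - i w)^s` -/
noncomputable def Sc (r s : ℝ) (w : ℂ) : ℂ := ((r : ℂ) - I * w) ^ (s : ℂ)

theorem Sc_base_re (r : ℝ) (w : ℂ) : ((r : ℂ) - I * w).re = r + w.im := by simp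

theorem norm_Sc (r s : ℝ) (w : ℂ) : ‖Sc r s w‖ = ‖(r : ℂ) - I * w‖ ^ s :=
  Complex.norm_cpow_real _ _

theorem Sc_re_ge {r s : ℝ} (hr : 0 < r) (hs0 : 0 ≤ s) (hs1 : s ≤ 1) {w : ℂ} (hw : 0 ≤ w.im) :
    Real.cos (s * (Real.pi / 2)) * ‖(r : ℂ) - I * w‖ ^ s ≤ (Sc r s w).re := by
  unfold Sc
  rw [Complex.cpow_ofReal_re, mul_comm]
  gcongr
  have h1 : |((r : ℂ) - I * w).arg| < Real.pi / 2 := by
    rw [Complex.abs_arg_lt_pi_div_two_iff]
    left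
    rw [Sc_base_re]
    linarith
  rw [← Real.cos_abs (((r : ℂ) - I * w).arg * s)]
  apply Real.cos_le_cos_of_nonneg_of_le_pi (abs_nonneg _)
  · nlinarith [Real.pi_pos]
  · rw [abs_mul, abs_of_nonneg hs0, mul_comm]
    gcongr

theorem Sc_diff {r s : ℝ} (hr : 0 < r) {w : ℂ} (hw : 0 ≤ w.im) : DifferentiableAt ℂ (Sc r s) w := by
  unfold Sc
  apply DifferentiableAt.cpow (by fun_prop) (by fun_prop)
  rw [Complex.mem_slitPlane_iff]
  left
  rw [Sc_base_re]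
  linarith

theorem norm_base_ge_r {r : ℝ} {w : ℂ} (hw : 0 ≤ w.im) : r ≤ ‖(r : ℂ) - I * w‖ := by
  have := Complex.re_le_norm ((r : ℂ) - I * w)
  rw [Sc_base_re] at this
  linarith

theorem norm_base_ge_abs {r : ℝ} (x : ℝ) : |x| ≤ ‖(r : ℂ) - I * (x : ℂ)‖ := by
  have := Complex.abs_im_le_norm ((r : ℂ) - I * (x : ℂ))
  simpa using this

theorem norm_base_le {r : ℝ} (hr : 0 < r) (w : ℂ) : ‖(r : ℂ) - I * w‖ ≤ r + ‖w‖ := by
  refine (norm_sub_le _ _).trans ?_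
  rw [norm_mul, Complex.norm_I, one_mul, Complex.norm_real, Real.norm_eq_abs, abs_of_pos hr]

/-- the disc -/
noncomputable def mu (H : ℂ → ℂ) (p τ β a Cq r s : ℝ) (w : ℂ) : ℂ :=
  p + I * H w + τ + I * β + I * ((a * r ^ (1 - s) : ℝ) : ℂ) * Sc r s w + I * Cq * w ^ 2

theorem mu_re (H : ℂ → ℂ) (p τ β a Cq r s : ℝ) (w : ℂ) :
    (mu H p τ β a Cq r s w).re =
      p - (H w).im + τ - a * r ^ (1 - s) * (Sc r s w).im - Cq * (w ^ 2).im := by
  unfold mu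
  simp only [add_re, mul_re, I_re, I_im, ofReal_re, ofReal_im, mul_im]
  ring

theorem mu_im (H : ℂ → ℂ) (p τ β a Cq r s : ℝ) (w : ℂ) :
    (mu H p τ β a Cq r s w).im =
      (H w).re + β + a * r ^ (1 - s) * (Sc r s w).re + Cq * (w ^ 2).re := by
  unfold mu
  simp only [add_im, mul_re, I_re, I_im, ofReal_re, ofReal_im, mul_im]
  ring

theorem sq_re' (w : ℂ) : (w ^ 2).re = w.re ^ 2 - w.im ^ 2 := by
  rw [sq, mul_re]; ring

theorem sq_im' (w : ℂ) : (w ^ 2).im = 2 * w.re * w.im := by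
  rw [sq, mul_im]; ring

/-- `r^(1-s) ‖r - i w‖^s` is between `r` and `r + ‖w‖` -/
theorem prod_ge_r {r s : ℝ} (hr : 0 < r) (hs0 : 0 ≤ s) {w : ℂ} (hw : 0 ≤ w.im) :
    r ≤ r ^ (1 - s) * ‖(r : ℂ) - I * w‖ ^ s := by
  have h1 : r ^ s ≤ ‖(r : ℂ) - I * w‖ ^ s := Real.rpow_le_rpow hr.le (norm_base_ge_r hw) hs0
  calc r = r ^ (1 - s) * r ^ s := by rw [← Real.rpow_add hr]; norm_num
    _ ≤ _ := by gcongr

theorem prod_le {r s : ℝ} (hr : 0 < r) (hs0 : 0 ≤ s) (hs1 : s ≤ 1) (w : ℂ) :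
    r ^ (1 - s) * ‖(r : ℂ) - I * w‖ ^ s ≤ r + ‖w‖ := by
  have h0 : 0 < r + ‖w‖ := by positivity
  have h1 : ‖(r : ℂ) - I * w‖ ^ s ≤ (r + ‖w‖) ^ s :=
    Real.rpow_le_rpow (norm_nonneg _) (norm_base_le hr w) hs0
  have h2 : r ^ (1 - s) ≤ (r + ‖w‖) ^ (1 - s) :=
    Real.rpow_le_rpow hr.le (by linarith [norm_nonneg w]) (by linarith)
  calc r ^ (1 - s) * ‖(r : ℂ) - I * w‖ ^ s ≤ (r + ‖w‖) ^ (1 - s) * (r + ‖w‖) ^ s := by gcongr
    _ = r + ‖w‖ := by rw [← Real.rpow_add h0]; norm_num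

/-- the weighted sector term: modulus -/
theorem abs_term_le {a r s : ℝ} (ha : 0 ≤ a) (hr : 0 < r) (hs0 : 0 ≤ s) (hs1 : s ≤ 1) (w : ℂ) :
    a * r ^ (1 - s) * ‖Sc r s w‖ ≤ a * (r + ‖w‖) := by
  rw [norm_Sc, mul_assoc]
  have := prod_le hr hs0 hs1 w
  gcongr

/-- the two-cone tube over a box -/
def T2 (k R : ℝ) (e : ℝ × ℝ) : Set (ℂ × ℂ) :=
  {z | |z.1.re - e.1| < R ∧ |z.2.re - e.2| < R ∧ |z.1.im| < R ∧ |z.2.im| < R ∧
    0 < z.1.im + k * z.2.im ∧ 0 < z.2.im + k * z.1.im}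

/-- a compact part of the tube, with margin `δ` -/
def T2c (k R δ : ℝ) (e : ℝ × ℝ) : Set (ℂ × ℂ) :=
  {z | |z.1.re - e.1| ≤ R ∧ |z.2.re - e.2| ≤ R ∧ |z.1.im| ≤ R ∧ |z.2.im| ≤ R ∧
    δ ≤ z.1.im + k * z.2.im ∧ δ ≤ z.2.im + k * z.1.im}

theorem T2_open (k R : ℝ) (e : ℝ × ℝ) : IsOpen (T2 k R e) := by
  have h : T2 k R e = {z | |z.1.re - e.1| < R} ∩ ({z | |z.2.re - e.2| < R} ∩ ({z | |z.1.im| < R} ∩
      ({z | |z.2.im| < R} ∩ ({z | 0 < z.1.im + k * z.2.im} ∩ {z | 0 < z.2.im + k * z.1.im})))) := rfl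
  rw [h]
  exact (isOpen_lt (by fun_prop) (by fun_prop)).inter
    ((isOpen_lt (by fun_prop) (by fun_prop)).inter
    ((isOpen_lt (by fun_prop) (by fun_prop)).inter
    ((isOpen_lt (by fun_prop) (by fun_prop)).inter
    ((isOpen_lt (by fun_prop) (by fun_prop)).inter (isOpen_lt (by fun_prop) (by fun_prop))))))

theorem T2c_compact (k R δ : ℝ) (e : ℝ × ℝ) : IsCompact (T2c k R δ e) := by
  apply Metric.isCompact_of_isClosed_isBounded
  · have h : T2c k R δ e = {z | |z.1.re - e.1| ≤ R} ∩ ({z | |z.2.re - e.2| ≤ R} ∩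
        ({z | |z.1.im| ≤ R} ∩ ({z | |z.2.im| ≤ R} ∩ ({z | δ ≤ z.1.im + k * z.2.im} ∩
        {z | δ ≤ z.2.im + k * z.1.im})))) := rfl
    rw [h]
    exact (isClosed_le (by fun_prop) (by fun_prop)).inter
      ((isClosed_le (by fun_prop) (by fun_prop)).inter
      ((isClosed_le (by fun_prop) (by fun_prop)).inter
      ((isClosed_le (by fun_prop) (by fun_prop)).inter
      ((isClosed_le (by fun_prop) (by fun_prop)).inter (isClosed_le (by fun_prop) (by fun_prop))))))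
  · rw [isBounded_iff_forall_norm_le]
    refine ⟨(|e.1| + R + R) + (|e.2| + R + R), ?_⟩
    intro z hz
    obtain ⟨h1, h2, h3, h4, -, -⟩ := hz
    have e1 : ‖z.1‖ ≤ |z.1.re| + |z.1.im| := Complex.norm_le_abs_re_add_abs_im _
    have e2 : ‖z.2‖ ≤ |z.2.re| + |z.2.im| := Complex.norm_le_abs_re_add_abs_im _
    have e3 : |z.1.re| ≤ |z.1.re - e.1| + |e.1| := by
      have := abs_add_le (z.1.re - e.1) e.1; simpa using this
    have e4 : |z.2.re| ≤ |z.2.re - e.2| + |e.2| := by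
      have := abs_add_le (z.2.re - e.2) e.2; simpa using this
    rw [Prod.norm_def]
    have hR : 0 ≤ R := (abs_nonneg _).trans h1
    have := abs_nonneg e.1
    have := abs_nonneg e.2
    exact max_le (by linarith) (by linarith)

theorem T2c_sub {k R R' δ : ℝ} {e : ℝ × ℝ} (hR : R < R') (hδ : 0 < δ) : T2c k R δ e ⊆ T2 k R' e := by
  intro z hz
  obtain ⟨h1, h2, h3, h4, h5, h6⟩ := hz
  exact ⟨by linarith, by linarith, by linarith, by linarith, by linarith, by linarith⟩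

theorem mem_closure_HD {ρ : ℝ} {w : ℂ} (h1 : ‖w‖ < ρ) (h2 : 0 ≤ w.im) : w ∈ closure (HD ρ) := by
  rw [Metric.mem_closure_iff]
  intro η hη
  have h3 : 0 < min (η / 2) ((ρ - ‖w‖) / 2) := lt_min (by linarith) (by linarith)
  set t := min (η / 2) ((ρ - ‖w‖) / 2) with ht
  have h4 : t ≤ η / 2 := min_le_left _ _
  have h5 : t ≤ (ρ - ‖w‖) / 2 := min_le_right _ _
  refine ⟨w + t * I, ⟨?_, ?_⟩, ?_⟩
  · have : ‖w + t * I‖ ≤ ‖w‖ + t := by
      refine (norm_add_le _ _).trans ?_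
      rw [norm_mul, Complex.norm_I, mul_one, Complex.norm_real, Real.norm_eq_abs, abs_of_pos h3]
    linarith
  · simp
    linarith
  · rw [dist_eq_norm]
    have : w - (w + t * I) = -(t * I) := by ring
    rw [this, norm_neg, norm_mul, Complex.norm_I, mul_one, Complex.norm_real, Real.norm_eq_abs,
      abs_of_pos h3]
    linarith

/-- constant of the nontangential bound -/
noncomputable def C5 (C ρ : ℝ) : ℝ := 4 * C ^ 4 / ρ ^ 3 + C ^ 2 / ρ

theorem Bish.nt {A : Set (ℝ × ℝ)} {e : ℝ × ℝ} {ε c p : ℝ} {H : ℂ → ℂ} (B : Bish A e ε c p H)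
    (hε : 0 < ε) {C ρ r : ℝ} (hC : 0 < C) (hρ : 0 < ρ) (hr : 0 < r) (hsm : C ^ 2 * r / ρ ≤ 1 / 2)
    {w : ℂ} (hw : ‖w‖ ≤ C * r) (hy : ρ * r ≤ w.im) : ‖H w - H 0‖ ≤ C5 C ρ * ε * r := by
  set R := C ^ 2 * r / ρ with hR
  have hR0 : 0 < R := by positivity
  have hRρ : R * ρ = C ^ 2 * r := by rw [hR]; field_simp
  have hcI : ‖(R : ℂ) * I‖ = R := by
    rw [norm_mul, Complex.norm_I, mul_one, Complex.norm_real, Real.norm_eq_abs, abs_of_pos hR0]
  have hsub : ball ((R : ℂ) * I) R ⊆ HD 1 := by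
    intro z hz
    rw [mem_ball, dist_eq_norm] at hz
    constructor
    · have : ‖z‖ ≤ ‖z - R * I‖ + ‖(R : ℂ) * I‖ := by
        have := norm_add_le (z - R * I) (R * I)
        simpa using this
      rw [hcI] at this
      linarith
    · have h1 : |(z - R * I).im| ≤ ‖z - R * I‖ := Complex.abs_im_le_norm _
      have h2 : (z - R * I).im = z.im - R := by simp
      rw [h2] at h1
      have := (abs_le.mp h1).1
      linarith
  have hd : ‖w - R * I‖ ^ 2 ≤ R ^ 2 - C ^ 2 * r ^ 2 := by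
    have h1 : ‖w - R * I‖ ^ 2 = ‖w‖ ^ 2 - 2 * R * w.im + R ^ 2 := by
      rw [← Complex.normSq_eq_norm_sq, ← Complex.normSq_eq_norm_sq, normSq_apply, normSq_apply]
      simp
      ring
    have h2 : ‖w‖ ^ 2 ≤ (C * r) ^ 2 := pow_le_pow_left₀ (norm_nonneg _) hw 2
    have h3 : R * (ρ * r) ≤ R * w.im := by gcongr
    nlinarith
  set d := ‖w - R * I‖ with hdd
  have hd0 : 0 ≤ d := norm_nonneg _
  have hdR : d < R := by
    have : 0 < C ^ 2 * r ^ 2 := by positivity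
    nlinarith
  have hgap : ρ * r / 2 ≤ R - d := by
    have h1 : C ^ 2 * r ^ 2 ≤ (R - d) * (R + d) := by nlinarith
    have h2 : (R - d) * (R + d) ≤ (R - d) * (2 * R) := by
      have : 0 ≤ R - d := by linarith
      gcongr
      linarith
    have h3 : C ^ 2 * r ^ 2 = (ρ * r / 2) * (2 * R) := by
      have : ρ * r / 2 * (2 * R) = r * (R * ρ) := by ring
      rw [this, hRρ]; ring
    have h4 : (ρ * r / 2) * (2 * R) ≤ (R - d) * (2 * R) := by linarith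
    exact le_of_mul_le_mul_right h4 (by positivity)
  have hvt := B.vt R hR0 (by linarith)
  have hH : DifferentiableOn ℂ H (ball ((R : ℂ) * I) R) := B.dc.differentiableOn.mono hsub
  have hM : (H (R * I)).re ≤ ε * R := by
    have h1 := (Complex.re_le_norm (H (R * I) - H 0)).trans hvt
    rw [sub_re, B.z0] at h1
    linarith
  have hwb : w ∈ ball ((R : ℂ) * I) R := by rw [mem_ball, dist_eq_norm]; exact hdR
  have hb := borel (u := fun z => -H z) (M := ε * R) (by positivity) hH.neg (fun z hz => by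
    have h1 := hsub hz
    have h2 := B.nn z h1.1.le h1.2.le
    simp only [sub_re, neg_re]
    linarith) hwb
  have e1 : ‖-H w - -H (R * I)‖ = ‖H w - H (R * I)‖ := by rw [← norm_neg]; congr 1; ring
  simp only [e1] at hb
  rw [← hdd] at hb
  have h5 : 2 * (ε * R) * d / (R - d) ≤ 4 * C ^ 4 / ρ ^ 3 * ε * r := by
    have hpos : 0 < ρ * r / 2 := by positivity
    calc 2 * (ε * R) * d / (R - d) ≤ 2 * (ε * R) * R / (ρ * r / 2) := by gcongr
      _ = 4 * C ^ 4 / ρ ^ 3 * ε * r := by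
        rw [hR]; field_simp; ring
  have h6 : ε * R = C ^ 2 / ρ * ε * r := by rw [hR]; field_simp
  calc ‖H w - H 0‖ ≤ ‖H w - H (R * I)‖ + ‖H (R * I) - H 0‖ := norm_sub_le_norm_sub_add_norm_sub _ _ _
    _ ≤ 4 * C ^ 4 / ρ ^ 3 * ε * r + C ^ 2 / ρ * ε * r := by
      rw [← h6]; exact add_le_add (hb.trans h5) hvt
    _ = C5 C ρ * ε * r := by unfold C5; ring

/-- a disc through the target `z` at scale `r` -/
structure DiscT (A : Set (ℝ × ℝ)) (e : ℝ × ℝ) (k R δ ρ C1 C7 b1 s r : ℝ) (z : ℂ × ℂ) (μ : ℂ → ℂ) :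
    Prop where
  dc : DiffContOnCl ℂ μ (HD ρ)
  tg : ∃ w ∈ HD ρ, ‖w‖ ≤ C7 * r ∧ (μ w, (e.2 : ℂ) + w) = z
  ins : ∀ w : ℂ, ‖w‖ ≤ ρ → 0 ≤ w.im → (μ w, (e.2 : ℂ) + w) ∈ T2 k R e
  arc : ∀ w : ℂ, ‖w‖ = ρ → 0 ≤ w.im → (μ w, (e.2 : ℂ) + w) ∈ T2c k (R / 2) δ e
  pt : ∀ x : ℝ, |x| ≤ ρ → Pt 0 C1 A (μ x, (e.2 : ℂ) + x)
  foot : ∀ x : ℝ, |x| ≤ ρ → |(μ x).re - e.1| ≤ C7 * (r + |x|)
  up : ∀ x : ℝ, |x| ≤ ρ → (μ x).im ≤ C7 * (r + |x|)
  lo : ∀ x : ℝ, |x| ≤ ρ → b1 * (r ^ (1 - s) * (max r |x|) ^ s) ≤ (μ x).im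

/-- solving for `τ`, `β` -/
theorem solve {A : Set (ℝ × ℝ)} {e : ℝ × ℝ} {ε c p : ℝ} {H : ℂ → ℂ} (B : Bish A e ε c p H)
    (hε : 0 < ε) {C q r s Cq : ℝ} (hC : 1 ≤ C) (hq : 0 < q) (hq1 : q ≤ 1) (hs0 : 0 ≤ s) (hs1 : s ≤ 1)
    (hCq : 0 ≤ Cq) (hεC : C5 C q * ε ≤ q / 4) (hr : 0 < r) (hr1 : C ^ 2 * r / q ≤ 1 / 2)
    (hr2 : Cq * C ^ 2 * r ≤ q / 4) {t : ℂ × ℂ} (ht1 : ‖t.1‖ ≤ C) (ht2 : ‖t.2‖ ≤ C)
    (hi1 : q ≤ t.1.im) (hi2 : q ≤ t.2.im) :
    ∃ τ β : ℝ, |τ| ≤ (C + 1) * r ∧ q / 4 * r ≤ β ∧ β ≤ (C + 1) * r ∧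
      mu H p τ β (q / (8 * C)) Cq r s (r * t.2) = e.1 + r * t.1 := by
  set w : ℂ := r * t.2 with hw
  set a : ℝ := q / (8 * C) with ha
  have hC0 : 0 < C := by linarith
  have ha0 : 0 < a := by positivity
  have haC : a * (1 + C) ≤ q / 4 := by
    rw [ha, div_mul_eq_mul_div, div_le_div_iff₀ (by positivity) (by norm_num)]
    nlinarith
  have hwn : ‖w‖ ≤ C * r := by
    rw [hw, norm_mul, Complex.norm_real, Real.norm_eq_abs, abs_of_pos hr, mul_comm]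
    gcongr
  have hwi : w.im = r * t.2.im := by rw [hw]; simp
  have hwi' : q * r ≤ w.im := by rw [hwi, mul_comm r]; gcongr
  have hwi0 : 0 ≤ w.im := le_trans (by positivity) hwi'
  have hnt := B.nt hε hC0 hq hr hr1 hwn hwi'
  have hnt' : ‖H w - H 0‖ ≤ q / 4 * r := hnt.trans (by gcongr)
  have hS : a * r ^ (1 - s) * ‖Sc r s w‖ ≤ q / 4 * r := by
    refine (abs_term_le ha0.le hr hs0 hs1 w).trans ?_
    calc a * (r + ‖w‖) ≤ a * (r + C * r) := by gcongr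
      _ = a * (1 + C) * r := by ring
      _ ≤ q / 4 * r := by gcongr
  have hQ : Cq * ‖w‖ ^ 2 ≤ q / 4 * r := by
    calc Cq * ‖w‖ ^ 2 ≤ Cq * (C * r) ^ 2 := by gcongr
      _ = (Cq * C ^ 2 * r) * r := by ring
      _ ≤ q / 4 * r := by gcongr
  have hr0 : 0 ≤ a * r ^ (1 - s) := by positivity
  -- real parts
  have b1 : |(H w).im - (H 0).im| ≤ q / 4 * r := by
    have := (Complex.abs_im_le_norm (H w - H 0)).trans hnt'
    simpa using this
  have b2 : |(H w).re| ≤ q / 4 * r := by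
    have := (Complex.abs_re_le_norm (H w - H 0)).trans hnt'
    rw [sub_re, B.z0, sub_zero] at this
    exact this
  have b3 : |a * r ^ (1 - s) * (Sc r s w).im| ≤ q / 4 * r := by
    rw [abs_mul, abs_of_nonneg hr0]
    refine le_trans ?_ hS
    gcongr
    exact Complex.abs_im_le_norm _
  have b4 : |a * r ^ (1 - s) * (Sc r s w).re| ≤ q / 4 * r := by
    rw [abs_mul, abs_of_nonneg hr0]
    refine le_trans ?_ hS
    gcongr
    exact Complex.abs_re_le_norm _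
  have b4' : 0 ≤ a * r ^ (1 - s) * (Sc r s w).re := by
    have h1 := Sc_re_ge hr hs0 hs1 hwi0
    have h2 : 0 ≤ Real.cos (s * (Real.pi / 2)) := by
      apply Real.cos_nonneg_of_neg_pi_div_two_le_of_le
      · nlinarith [Real.pi_pos]
      · nlinarith [Real.pi_pos]
    have h3 : 0 ≤ (Sc r s w).re := le_trans (by positivity) h1
    positivity
  have b5 : |Cq * (w ^ 2).im| ≤ q / 4 * r := by
    rw [abs_mul, abs_of_nonneg hCq]
    refine le_trans ?_ hQ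
    gcongr
    rw [← norm_pow]
    exact Complex.abs_im_le_norm _
  have b6 : |Cq * (w ^ 2).re| ≤ q / 4 * r := by
    rw [abs_mul, abs_of_nonneg hCq]
    refine le_trans ?_ hQ
    gcongr
    rw [← norm_pow]
    exact Complex.abs_re_le_norm _
  have hHnn : 0 ≤ (H w).re := by
    apply B.nn _ _ hwi0
    refine hwn.trans ?_
    rw [div_le_iff₀ hq] at hr1
    have h1 : C * r ≤ C ^ 2 * r := by
      rw [sq, mul_assoc]
      exact le_mul_of_one_le_left (by positivity) hC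
    linarith
  have hqr : q / 4 * r ≤ 1 / 4 * r := by gcongr
  have hCr : (C + 1) * r = C * r + r := by ring
  have t1 : |t.1.re| ≤ C := (Complex.abs_re_le_norm _).trans ht1
  have t2 : t.1.im ≤ C := (le_abs_self _).trans ((Complex.abs_im_le_norm _).trans ht1)
  refine ⟨r * t.1.re + ((H w).im - (H 0).im) + a * r ^ (1 - s) * (Sc r s w).im + Cq * (w ^ 2).im,
    r * t.1.im - (H w).re - a * r ^ (1 - s) * (Sc r s w).re - Cq * (w ^ 2).re, ?_, ?_, ?_, ?_⟩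
  · have h1 : |r * t.1.re| ≤ C * r := by
      rw [abs_mul, abs_of_pos hr, mul_comm]; gcongr
    have h2 := abs_add_le (r * t.1.re + ((H w).im - (H 0).im) + a * r ^ (1 - s) * (Sc r s w).im)
      (Cq * (w ^ 2).im)
    have h3 := abs_add_le (r * t.1.re + ((H w).im - (H 0).im)) (a * r ^ (1 - s) * (Sc r s w).im)
    have h4 := abs_add_le (r * t.1.re) ((H w).im - (H 0).im)
    rw [hCr]
    linarith
  · have h1 := (abs_le.mp b2).2
    have h2 := (abs_le.mp b4).2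
    have h3 := (abs_le.mp b6).2
    have h4 : q * r ≤ r * t.1.im := by rw [mul_comm r]; gcongr
    linarith
  · have h3 := (abs_le.mp b6).1
    have h4 : r * t.1.im ≤ C * r := by rw [mul_comm]; gcongr
    rw [hCr]
    linarith
  · apply Complex.ext
    · rw [mu_re]
      have := B.ft
      simp only [add_re, mul_re, ofReal_re, ofReal_im]
      linarith
    · rw [mu_im]
      simp only [add_im, mul_im, ofReal_re, ofReal_im]
      ring

end Vale.Agent.P097.H226
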