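import Vale.Agent.P097.H226.Targ

/-!
Row (D5) of 589 note 13190, main statement: `disc_exists`.
-/

open Complex Metric Set Filter Topology
open Vale.Agent.P097.H699 Vale.Agent.P097.H264

namespace Vale.Agent.P097.H226

theorem C5_pos {C q : ℝ} (hC : 0 < C) (hq : 0 < q) : 0 < C5 C q := by
  unfold C5
  positivity

/-- the cosine constant -/
noncomputable def kap (s : ℝ) : ℝ := Real.cos (s * (Real.pi / 2))

theorem kap_pos {s : ℝ} (hs0 : 0 ≤ s) (hs1 : s < 1) : 0 < kap s := by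
  apply Real.cos_pos_of_mem_Ioo
  constructor
  · nlinarith [Real.pi_pos]
  · nlinarith [Real.pi_pos]

theorem kap_le_one (s : ℝ) : kap s ≤ 1 := Real.cos_le_one _

/-- all parameters of one disc -/
structure Par (A : Set (ℝ × ℝ)) (e : ℝ × ℝ) (ε c p : ℝ) (H : ℂ → ℂ) (k R C q s ρ Cq a r τ β : ℝ) :
    Prop where
  B : Bish A e ε c p H
  he : e ∈ A
  ε0 : 0 < ε
  ε1 : ε ≤ 1
  k0 : 0 < k
  k1 : k ≤ 1
  R0 : 0 < R
  C0 : 1 ≤ C
  q0 : 0 < q
  q1 : q ≤ 1
  s0 : 0 ≤ s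
  s1 : s < 1
  ρ0 : 0 < ρ
  ρR : ρ ≤ R / 16
  ρ1 : ρ ≤ 1 / 2
  Cq0 : 0 < Cq
  Cqρ : Cq * ρ = k / 2
  a0 : 0 < a
  a1 : a ≤ 1 / 8
  r0 : 0 < r
  rρ : r < ρ
  rR : (C + 1) * r ≤ R / 16
  τ1 : |τ| ≤ (C + 1) * r
  β1 : q / 4 * r ≤ β
  β2 : β ≤ (C + 1) * r
  hH : ∀ w : ℂ, ‖w‖ ≤ ρ → 0 ≤ w.im → ‖H w - H 0‖ ≤ R / 16

section
variable {A : Set (ℝ × ℝ)} {e : ℝ × ℝ} {ε c p : ℝ} {H : ℂ → ℂ} {k R C q s ρ Cq a r τ β : ℝ}

theorem Par.β0 (P : Par A e ε c p H k R C q s ρ Cq a r τ β) : 0 < β := by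
  have h1 := P.β1
  have h2 := P.q0
  have h3 := P.r0
  have : 0 < q / 4 * r := by positivity
  linarith

theorem Par.ra (P : Par A e ε c p H k R C q s ρ Cq a r τ β) : 0 ≤ a * r ^ (1 - s) := by
  have h1 := P.a0
  have h2 := P.r0
  positivity

theorem Par.Sre (P : Par A e ε c p H k R C q s ρ Cq a r τ β) {w : ℂ} (hw : 0 ≤ w.im) :
    kap s * (a * r ^ (1 - s) * ‖(r : ℂ) - I * w‖ ^ s) ≤ a * r ^ (1 - s) * (Sc r s w).re := by
  have h1 := Sc_re_ge P.r0 P.s0 P.s1.le hw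
  have h2 := P.ra
  calc kap s * (a * r ^ (1 - s) * ‖(r : ℂ) - I * w‖ ^ s)
      = a * r ^ (1 - s) * (Real.cos (s * (Real.pi / 2)) * ‖(r : ℂ) - I * w‖ ^ s) := by
        unfold kap; ring
    _ ≤ _ := by gcongr

theorem Par.S0 (P : Par A e ε c p H k R C q s ρ Cq a r τ β) {w : ℂ} (hw : 0 ≤ w.im) :
    0 ≤ a * r ^ (1 - s) * (Sc r s w).re := by
  have h1 := P.Sre hw
  have h2 := P.ra
  have h3 := kap_pos P.s0 P.s1
  exact le_trans (by positivity) h1

theorem Par.Sn (P : Par A e ε c p H k R C q s ρ Cq a r τ β) (w : ℂ) :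
    a * r ^ (1 - s) * ‖Sc r s w‖ ≤ a * (r + ‖w‖) := abs_term_le P.a0.le P.r0 P.s0 P.s1.le w

theorem Par.Si (P : Par A e ε c p H k R C q s ρ Cq a r τ β) (w : ℂ) :
    |a * r ^ (1 - s) * (Sc r s w).im| ≤ a * r ^ (1 - s) * ‖Sc r s w‖ := by
  have h2 := P.ra
  rw [abs_mul, abs_of_nonneg h2]
  gcongr
  exact Complex.abs_im_le_norm _

theorem Par.Sr (P : Par A e ε c p H k R C q s ρ Cq a r τ β) (w : ℂ) :
    a * r ^ (1 - s) * (Sc r s w).re ≤ a * (r + ‖w‖) := by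
  have h2 := P.ra
  refine le_trans ?_ (P.Sn w)
  gcongr
  exact Complex.re_le_norm _

theorem Par.low (P : Par A e ε c p H k R C q s ρ Cq a r τ β) {w : ℂ} (hw : ‖w‖ ≤ ρ)
    (hwi : 0 ≤ w.im) : β + Cq * (w.re ^ 2 - w.im ^ 2) ≤ (mu H p τ β a Cq r s w).im := by
  rw [mu_im, sq_re']
  have h1 := P.B.nn w (by linarith [P.ρ1]) hwi
  have h2 := P.S0 hwi
  linarith

theorem Par.Cqw (P : Par A e ε c p H k R C q s ρ Cq a r τ β) {w : ℂ} (hw : ‖w‖ ≤ ρ) :
    Cq * ‖w‖ ^ 2 ≤ 1 / 2 * ‖w‖ := by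
  have h0 := P.Cq0
  have h1 : Cq * ‖w‖ ≤ Cq * ρ := by gcongr
  rw [P.Cqρ] at h1
  have h2 := P.k1
  have h3 : Cq * ‖w‖ ≤ 1 / 2 := by linarith
  calc Cq * ‖w‖ ^ 2 = Cq * ‖w‖ * ‖w‖ := by ring
    _ ≤ 1 / 2 * ‖w‖ := by gcongr

theorem Par.box (P : Par A e ε c p H k R C q s ρ Cq a r τ β) {w : ℂ} (hw : ‖w‖ ≤ ρ)
    (hwi : 0 ≤ w.im) : |(mu H p τ β a Cq r s w).re - e.1| ≤ R / 4 ∧
      |(mu H p τ β a Cq r s w).im| ≤ R / 4 := by
  have h1 := P.hH w hw hwi
  have hR := P.R0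
  have hρR := P.ρR
  have h2 : |(H w).im - (H 0).im| ≤ R / 16 := by
    have := (Complex.abs_im_le_norm (H w - H 0)).trans h1
    simpa using this
  have h3 : |(H w).re| ≤ R / 16 := by
    have := (Complex.abs_re_le_norm (H w - H 0)).trans h1
    rw [sub_re, P.B.z0, sub_zero] at this
    exact this
  have h5 : a * (r + ‖w‖) ≤ R / 64 := by
    have h6 := P.a1
    have h7 := P.rρ
    have h8 := P.r0
    have : a * (r + ‖w‖) ≤ 1 / 8 * (ρ + ρ) := by gcongr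
    linarith
  have h4 := (P.Si w).trans ((P.Sn w).trans h5)
  have h4' := (P.Sr w).trans h5
  have h4'' := P.S0 hwi
  have hCq := P.Cqw hw
  have hCq0 := P.Cq0
  have h6 : |Cq * (w ^ 2).im| ≤ R / 32 := by
    rw [abs_mul, abs_of_pos hCq0]
    have : Cq * |(w ^ 2).im| ≤ Cq * ‖w‖ ^ 2 := by
      gcongr
      rw [← norm_pow]
      exact Complex.abs_im_le_norm _
    linarith
  have h7 : |Cq * (w ^ 2).re| ≤ R / 32 := by
    rw [abs_mul, abs_of_pos hCq0]
    have : Cq * |(w ^ 2).re| ≤ Cq * ‖w‖ ^ 2 := by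
      gcongr
      rw [← norm_pow]
      exact Complex.abs_re_le_norm _
    linarith
  have hft := P.B.ft
  have hτ := P.τ1.trans P.rR
  have hβ := P.β2.trans P.rR
  have hβ0 := P.β0
  constructor
  · rw [mu_re]
    have k1 := abs_le.mp h2
    have k2 := abs_le.mp hτ
    have k3 := abs_le.mp h4
    have k4 := abs_le.mp h6
    rw [abs_le]
    constructor <;> linarith [k1.1, k1.2, k2.1, k2.2, k3.1, k3.2, k4.1, k4.2]
  · rw [mu_im]
    have k1 := abs_le.mp h3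
    have k4 := abs_le.mp h7
    rw [abs_le]
    constructor <;> linarith [k1.1, k1.2, k4.1, k4.2]

theorem Par.dc (P : Par A e ε c p H k R C q s ρ Cq a r τ β) :
    DiffContOnCl ℂ (mu H p τ β a Cq r s) (HD ρ) := by
  have hsub : HD ρ ⊆ HD 1 := fun w hw => ⟨by linarith [hw.1, P.ρ1], hw.2⟩
  have hHd : DiffContOnCl ℂ H (HD ρ) :=
    ⟨P.B.dc.differentiableOn.mono hsub, P.B.dc.continuousOn.mono (closure_mono hsub)⟩
  have hcl : closure (HD ρ) ⊆ {ζ : ℂ | 0 ≤ ζ.im} := fun w hw => (HD_closure hw).2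
  have hrest : DiffContOnCl ℂ (fun w : ℂ => (p : ℂ) + τ + I * β +
      I * ((a * r ^ (1 - s) : ℝ) : ℂ) * Sc r s w + I * Cq * w ^ 2) (HD ρ) := by
    apply DifferentiableOn.diffContOnCl
    intro w hw
    apply DifferentiableAt.differentiableWithinAt
    have h1 := Sc_diff (s := s) P.r0 (hcl hw)
    fun_prop
  have h2 : DiffContOnCl ℂ (fun w : ℂ => I * H w) (HD ρ) := hHd.const_smul I
  have h3 := hrest.add h2
  have e1 : mu H p τ β a Cq r s = (fun w : ℂ => (p : ℂ) + τ + I * β +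
      I * ((a * r ^ (1 - s) : ℝ) : ℂ) * Sc r s w + I * Cq * w ^ 2) + fun w : ℂ => I * H w := by
    funext w
    simp only [mu, Pi.add_apply]
    ring
  rw [e1]
  exact h3

theorem Par.Cqim (P : Par A e ε c p H k R C q s ρ Cq a r τ β) {w : ℂ} (hw : ‖w‖ ≤ ρ)
    (hwi : 0 ≤ w.im) : Cq * w.im ^ 2 ≤ k / 2 * w.im := by
  have h5 : w.im ≤ ρ := ((le_abs_self _).trans (Complex.abs_im_le_norm w)).trans hw
  have h0 := P.Cq0
  have : Cq * w.im ≤ k / 2 := by rw [← P.Cqρ]; gcongr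
  calc Cq * w.im ^ 2 = Cq * w.im * w.im := by ring
    _ ≤ k / 2 * w.im := by gcongr

theorem Par.ins (P : Par A e ε c p H k R C q s ρ Cq a r τ β) {w : ℂ} (hw : ‖w‖ ≤ ρ)
    (hwi : 0 ≤ w.im) : (mu H p τ β a Cq r s w, (e.2 : ℂ) + w) ∈ T2 k R e := by
  obtain ⟨h1, h2⟩ := P.box hw hwi
  have h3 := P.low hw hwi
  have hR := P.R0
  have hρR := P.ρR
  have h5 : w.im ≤ ‖w‖ := (le_abs_self _).trans (Complex.abs_im_le_norm w)
  have h6 : |w.re| ≤ ‖w‖ := Complex.abs_re_le_norm w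
  have h7 := P.Cqim hw hwi
  have h8 : 0 ≤ Cq * w.re ^ 2 := by have := P.Cq0; positivity
  have hβ := P.β0
  have hk := P.k0
  have hk1 := P.k1
  have h9 : β - k / 2 * w.im ≤ (mu H p τ β a Cq r s w).im := by
    have : Cq * (w.re ^ 2 - w.im ^ 2) = Cq * w.re ^ 2 - Cq * w.im ^ 2 := by ring
    linarith
  have hkw : 0 ≤ k * w.im := by positivity
  generalize (mu H p τ β a Cq r s w) = M at *
  refine ⟨by simp only; linarith, ?_, by simp only; linarith, ?_, ?_, ?_⟩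
  · simp only [add_re, ofReal_re, add_sub_cancel_left]
    linarith
  · simp only [add_im, ofReal_im, zero_add]
    rw [abs_of_nonneg hwi]
    linarith
  · simp only [add_im, ofReal_im, zero_add]
    linarith
  · simp only [add_im, ofReal_im, zero_add]
    have h10 : k * (β - k / 2 * w.im) ≤ k * M.im := by gcongr
    have h11 : 0 < k * β := by positivity
    have h12 : k * (k / 2 * w.im) ≤ 1 / 2 * w.im := by
      have : k * (k / 2 * w.im) = (k * k) / 2 * w.im := by ring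
      rw [this]
      have h13 : k * k ≤ 1 := by nlinarith
      gcongr
    have h14 : k * (β - k / 2 * w.im) = k * β - k * (k / 2 * w.im) := by ring
    linarith

theorem Par.arc (P : Par A e ε c p H k R C q s ρ Cq a r τ β) {w : ℂ} (hw : ‖w‖ = ρ)
    (hwi : 0 ≤ w.im) : (mu H p τ β a Cq r s w, (e.2 : ℂ) + w) ∈ T2c k (R / 2) (k ^ 2 * ρ / 2) e := by
  obtain ⟨h1, h2⟩ := P.box hw.le hwi
  have h3 := P.low hw.le hwi
  have hR := P.R0
  have hρR := P.ρR
  have hρ := P.ρ0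
  have h4 := norm_sq_eq w
  rw [hw] at h4
  have h5 : w.im ≤ ρ := by rw [← hw]; exact (le_abs_self _).trans (Complex.abs_im_le_norm w)
  have h6 : |w.re| ≤ ρ := by rw [← hw]; exact Complex.abs_re_le_norm w
  have h7 := P.Cqim hw.le hwi
  have h8 : Cq * (w.re ^ 2 - w.im ^ 2) = k / 2 * ρ - 2 * (Cq * w.im ^ 2) := by
    have : w.re ^ 2 = ρ ^ 2 - w.im ^ 2 := by linarith
    rw [this]
    have h9 : Cq * ρ ^ 2 = k / 2 * ρ := by rw [sq, ← mul_assoc, P.Cqρ]
    linear_combination h9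
  have hβ := P.β0
  have hk := P.k0
  have hk1 := P.k1
  have h9 : k / 2 * ρ - k * w.im ≤ (mu H p τ β a Cq r s w).im := by linarith
  have hkk : k ^ 2 ≤ k := by nlinarith
  have hk2 : k ^ 2 * ρ / 2 ≤ k / 2 * ρ := by
    have : k ^ 2 * ρ / 2 = k ^ 2 * (ρ / 2) := by ring
    rw [this]
    have : k / 2 * ρ = k * (ρ / 2) := by ring
    rw [this]
    gcongr
  generalize (mu H p τ β a Cq r s w) = M at *
  refine ⟨by simp only; linarith, ?_, by simp only; linarith, ?_, ?_, ?_⟩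
  · simp only [add_re, ofReal_re, add_sub_cancel_left]
    linarith
  · simp only [add_im, ofReal_im, zero_add]
    rw [abs_of_nonneg hwi]
    linarith
  · simp only [add_im, ofReal_im, zero_add]
    linarith
  · simp only [add_im, ofReal_im, zero_add]
    have h10 : k * (k / 2 * ρ - k * w.im) ≤ k * M.im := by gcongr
    have h12 : k * (k * w.im) ≤ 1 * w.im := by
      have : k * (k * w.im) = (k * k) * w.im := by ring
      rw [this]
      have h13 : k * k ≤ 1 := by nlinarith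
      gcongr
    have h14 : k * (k / 2 * ρ - k * w.im) = k ^ 2 * ρ / 2 - k * (k * w.im) := by ring
    linarith

theorem Par.absle (P : Par A e ε c p H k R C q s ρ Cq a r τ β) {x : ℝ} (hx : |x| ≤ ρ) :
    |(H x).im - (H 0).im| ≤ |x| ∧ (H x).re ≤ |x| := by
  have h1 := P.B.hz x (by linarith [P.ρ1])
  have h2 : ε * |x| ≤ |x| := mul_le_of_le_one_left (abs_nonneg x) P.ε1
  constructor
  · have := (Complex.abs_im_le_norm (H x - H 0)).trans h1
    rw [sub_im] at this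
    linarith
  · have := (Complex.re_le_norm (H x - H 0)).trans h1
    rw [sub_re, P.B.z0] at this
    linarith

theorem Par.bdist (P : Par A e ε c p H k R C q s ρ Cq a r τ β) {x : ℝ} (hx : |x| ≤ ρ) :
    infDist (p - (H x).im, e.2 + x) A ≤ (H x).re / c := by
  have hc := P.B.c0
  have h1 := P.B.bd x (by linarith [P.ρ1])
  have h2 : infDist (p - (H x).im, e.2 + x) A ≤ 1 := by
    refine (infDist_le_dist_of_mem P.he).trans ?_
    rw [Prod.dist_eq]
    have h3 := (P.absle hx).1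
    have h4 := P.B.ft
    have h5 := P.ρ1
    apply max_le
    · rw [Real.dist_eq]
      have : p - (H x).im - e.1 = -((H x).im - (H 0).im) := by linarith
      simp only
      rw [this, abs_neg]
      linarith
    · rw [Real.dist_eq]
      simp only [add_sub_cancel_left]
      linarith
  rw [min_eq_left h2] at h1
  rw [le_div_iff₀ hc, mul_comm]
  exact h1

theorem Par.T (P : Par A e ε c p H k R C q s ρ Cq a r τ β) {x : ℝ} (hx : |x| ≤ ρ) :
    (H x).re ≤ (mu H p τ β a Cq r s x).im ∧ β ≤ (mu H p τ β a Cq r s x).im ∧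
    kap s * (a * r ^ (1 - s) * ‖(r : ℂ) - I * (x : ℂ)‖ ^ s) ≤ (mu H p τ β a Cq r s x).im := by
  have h1 := P.B.nn x (by rw [Complex.norm_real, Real.norm_eq_abs]; linarith [P.ρ1]) (by simp)
  have h2 := P.Sre (w := x) (by simp)
  have h3 := P.S0 (w := x) (by simp)
  have h4 := P.β0
  have h5 : 0 ≤ Cq * ((x : ℂ) ^ 2).re := by
    have := P.Cq0
    rw [sq_re']
    simp
    positivity
  rw [mu_im]
  refine ⟨by linarith, by linarith, by linarith⟩

theorem Par.foot (P : Par A e ε c p H k R C q s ρ Cq a r τ β) {x : ℝ} (hx : |x| ≤ ρ) :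
    |(mu H p τ β a Cq r s x).re - e.1| ≤ (C + 4) * (r + |x|) ∧
      (mu H p τ β a Cq r s x).im ≤ (C + 4) * (r + |x|) := by
  obtain ⟨h1, h2⟩ := P.absle hx
  have h3 := (P.Si x).trans (P.Sn x)
  have h3' := P.Sr x
  have hn : ‖(x : ℂ)‖ = |x| := by rw [Complex.norm_real, Real.norm_eq_abs]
  rw [hn] at h3 h3'
  have hr := P.r0
  have hx0 := abs_nonneg x
  have hC := P.C0
  have h4 : a * (r + |x|) ≤ r + |x| := by
    have := P.a1
    exact mul_le_of_le_one_left (by linarith) (by linarith)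
  have h5 : ((x : ℂ) ^ 2).im = 0 := by rw [sq_im']; simp
  have h6 : ((x : ℂ) ^ 2).re = |x| ^ 2 := by rw [sq_re']; simp
  have h7 : Cq * |x| ^ 2 ≤ 1 / 2 * |x| := by
    have := P.Cqw (w := x) (by rw [hn]; exact hx)
    rwa [hn] at this
  have h8 := P.τ1
  have h9 := P.β2
  have h10 : (C + 4) * (r + |x|) = (C + 1) * r + 3 * r + C * |x| + 4 * |x| := by ring
  have h11 : 0 ≤ C * |x| := by positivity
  have h12 := P.B.ft
  constructor
  · rw [mu_re, h5]
    have k1 := abs_le.mp h1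
    have k2 := abs_le.mp h8
    have k3 := abs_le.mp (h3.trans h4)
    rw [abs_le, h10]
    constructor <;> linarith [k1.1, k1.2, k2.1, k2.2, k3.1, k3.2]
  · rw [mu_im, h6, h10]
    linarith

theorem Par.pt (P : Par A e ε c p H k R C q s ρ Cq a r τ β) {x : ℝ} (hx : |x| ≤ ρ) :
    Pt 0 (1 / c + 4 * (C + 1) / q + 1 / kap s + 1) A (mu H p τ β a Cq r s x, (e.2 : ℂ) + x) := by
  obtain ⟨t1, t2, t3⟩ := P.T hx
  have hc := P.B.c0
  have hq := P.q0
  have hκ := kap_pos P.s0 P.s1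
  have hβ := P.β0
  set T := (mu H p τ β a Cq r s x).im with hT
  have hT0 : 0 < T := by linarith
  have hτ : |τ| ≤ 4 * (C + 1) / q * T := by
    have h1 := P.τ1
    have h2 := P.β1
    have h3 : r ≤ 4 / q * T := by
      rw [div_mul_eq_mul_div, le_div_iff₀ hq]
      linarith
    have hC := P.C0
    calc |τ| ≤ (C + 1) * r := h1
      _ ≤ (C + 1) * (4 / q * T) := by gcongr
      _ = _ := by ring
  have hS : |a * r ^ (1 - s) * (Sc r s x).im| ≤ 1 / kap s * T := by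
    refine (P.Si x).trans ?_
    rw [norm_Sc, div_mul_eq_mul_div, le_div_iff₀ hκ, one_mul]
    linarith
  have hd : infDist ((mu H p τ β a Cq r s x).re, e.2 + x) A ≤
      1 / c * T + 4 * (C + 1) / q * T + 1 / kap s * T := by
    have h1 := P.bdist hx
    have h2 : (H x).re / c ≤ 1 / c * T := by
      rw [div_mul_eq_mul_div, one_mul]
      gcongr
    have h3 : infDist ((mu H p τ β a Cq r s x).re, e.2 + x) A ≤
        infDist (p - (H x).im, e.2 + x) A +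
          dist ((mu H p τ β a Cq r s x).re, e.2 + x) (p - (H x).im, e.2 + x) :=
      infDist_le_infDist_add_dist
    have h4 : dist ((mu H p τ β a Cq r s x).re, e.2 + x) (p - (H x).im, e.2 + x) ≤
        |τ| + |a * r ^ (1 - s) * (Sc r s x).im| := by
      rw [Prod.dist_eq]
      apply max_le
      · simp only
        rw [Real.dist_eq, mu_re]
        have h5 : ((x : ℂ) ^ 2).im = 0 := by rw [sq_im']; simp
        rw [h5]
        have : p - (H x).im + τ - a * r ^ (1 - s) * (Sc r s x).im - Cq * 0 - (p - (H x).im) =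
            τ - a * r ^ (1 - s) * (Sc r s x).im := by ring
        rw [this]
        exact abs_sub _ _
      · simp only [dist_self]
        positivity
    linarith
  refine ⟨hT0, ?_, ?_⟩
  · simp
  · have h1 : infDist ((mu H p τ β a Cq r s x).re, e.2 + x) A <
        (1 / c + 4 * (C + 1) / q + 1 / kap s + 1) * T := by
      have : (1 / c + 4 * (C + 1) / q + 1 / kap s + 1) * T =
          1 / c * T + 4 * (C + 1) / q * T + 1 / kap s * T + T := by ring
      linarith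
    rw [infDist_lt_iff ⟨e, P.he⟩] at h1
    obtain ⟨y, hy, hy'⟩ := h1
    refine ⟨y, hy, ?_⟩
    simp only [add_re, ofReal_re]
    exact hy'.le

theorem Par.lo (P : Par A e ε c p H k R C q s ρ Cq a r τ β) {x : ℝ} (hx : |x| ≤ ρ) :
    a * kap s * (r ^ (1 - s) * (max r |x|) ^ s) ≤ (mu H p τ β a Cq r s x).im := by
  obtain ⟨t1, t2, t3⟩ := P.T hx
  refine le_trans ?_ t3
  have h1 : (max r |x|) ^ s ≤ ‖(r : ℂ) - I * (x : ℂ)‖ ^ s := by
    apply Real.rpow_le_rpow (le_max_of_le_left P.r0.le) _ P.s0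
    exact max_le (norm_base_ge_r (by simp)) (norm_base_ge_abs x)
  have h2 := P.a0
  have h3 := P.r0
  have h4 := kap_pos P.s0 P.s1
  calc a * kap s * (r ^ (1 - s) * (max r |x|) ^ s)
      ≤ a * kap s * (r ^ (1 - s) * ‖(r : ℂ) - I * (x : ℂ)‖ ^ s) := by gcongr
    _ = _ := by ring

end

/-- **discs through all targets at all small scales** (`C1, C7, b1` do not depend on `R`) -/
theorem disc_exists {A : Set (ℝ × ℝ)} {e : ℝ × ℝ} (he : e ∈ A) {k C q s : ℝ} (hk : 0 < k)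
    (hk1 : k ≤ 1) (hC : 1 ≤ C) (hq : 0 < q) (hq1 : q ≤ 1) (hs0 : 0 ≤ s) (hs1 : s < 1)
    {ε c p : ℝ} {H : ℂ → ℂ} (hε : 0 < ε) (hε1 : ε ≤ 1) (hεC : C5 C q * ε ≤ q / 4)
    (B : Bish A e ε c p H) :
    ∃ C1 C7 b1 : ℝ, 0 ≤ C1 ∧ 1 ≤ C7 ∧ 0 < b1 ∧ b1 ≤ 1 ∧ ∀ R : ℝ, 0 < R →
    ∃ ρ δ r0 : ℝ, 0 < ρ ∧ ρ ≤ 1 / 2 ∧ ρ ≤ R / 16 ∧ 0 < δ ∧ 0 < r0 ∧
      ∀ r : ℝ, 0 < r → r < r0 → ∀ t : ℂ × ℂ, ‖t.1‖ ≤ C → ‖t.2‖ ≤ C → q ≤ t.1.im → q ≤ t.2.im →
        ∃ μ : ℂ → ℂ, DiscT A e k R δ ρ C1 C7 b1 s r ((e.1 : ℂ) + r * t.1, (e.2 : ℂ) + r * t.2) μ := by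
  have hC0 : 0 < C := by linarith
  have hκ0 := kap_pos hs0 hs1
  have hκ1 := kap_le_one s
  have ha0 : 0 < q / (8 * C) := by positivity
  have ha1 : q / (8 * C) ≤ 1 / 8 := by
    rw [div_le_div_iff₀ (by positivity) (by norm_num)]
    nlinarith
  refine ⟨1 / c + 4 * (C + 1) / q + 1 / kap s + 1, C + 4, q / (8 * C) * kap s, ?_, by linarith,
    by positivity, ?_, ?_⟩
  · have := B.c0
    positivity
  · have : q / (8 * C) * kap s ≤ 1 / 8 * 1 := by gcongr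
    linarith
  intro R hR
  -- continuity of H at 0
  have hcont : ∃ ρ₁ > 0, ∀ w : ℂ, ‖w‖ < ρ₁ → 0 ≤ w.im → ‖w‖ < 1 → ‖H w - H 0‖ ≤ R / 16 := by
    have h0 : (0 : ℂ) ∈ closure (HD 1) := mem_closure_HD (by simp) (by simp)
    have h1 := B.dc.continuousOn 0 h0
    rw [Metric.continuousWithinAt_iff] at h1
    obtain ⟨ρ₁, hρ₁, h2⟩ := h1 (R / 16) (by positivity)
    refine ⟨ρ₁, hρ₁, ?_⟩
    intro w hw hwi hw1
    have h3 := h2 (mem_closure_HD hw1 hwi) (by rw [dist_zero_right]; exact hw)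
    rw [dist_eq_norm] at h3
    exact h3.le
  obtain ⟨ρ₁, hρ₁, hH⟩ := hcont
  set ρ : ℝ := min (ρ₁ / 2) (min (R / 16) (1 / 2)) with hρ
  have hρ0 : 0 < ρ := lt_min (by linarith) (lt_min (by linarith) (by norm_num))
  have hρ1 : ρ ≤ ρ₁ / 2 := min_le_left _ _
  have hρ2 : ρ ≤ R / 16 := (min_le_right _ _).trans (min_le_left _ _)
  have hρ3 : ρ ≤ 1 / 2 := (min_le_right _ _).trans (min_le_right _ _)
  set Cq : ℝ := k / (2 * ρ) with hCq
  have hCq0 : 0 < Cq := by positivity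
  have hCqρ : Cq * ρ = k / 2 := by rw [hCq]; field_simp
  set r0 : ℝ := min (min (q / (4 * C ^ 2)) (q / (4 * Cq * C ^ 2)))
    (min (min (R / (16 * (C + 1))) (ρ / (2 * C))) ρ) with hr0
  have hr0p : 0 < r0 := by
    refine lt_min (lt_min ?_ ?_) (lt_min (lt_min ?_ ?_) hρ0) <;> positivity
  refine ⟨ρ, k ^ 2 * ρ / 2, r0, hρ0, hρ3, hρ2, by positivity, hr0p, ?_⟩
  intro r hr hrr t ht1 ht2 hi1 hi2
  have g1 : r < q / (4 * C ^ 2) := hrr.trans_le ((min_le_left _ _).trans (min_le_left _ _))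
  have g2 : r < q / (4 * Cq * C ^ 2) := hrr.trans_le ((min_le_left _ _).trans (min_le_right _ _))
  have g3 : r < R / (16 * (C + 1)) :=
    hrr.trans_le ((min_le_right _ _).trans ((min_le_left _ _).trans (min_le_left _ _)))
  have g4 : r < ρ / (2 * C) :=
    hrr.trans_le ((min_le_right _ _).trans ((min_le_left _ _).trans (min_le_right _ _)))
  have g5 : r < ρ := hrr.trans_le ((min_le_right _ _).trans (min_le_right _ _))
  rw [lt_div_iff₀ (by positivity)] at g1 g2 g3 g4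
  have hr1 : C ^ 2 * r / q ≤ 1 / 2 := by
    rw [div_le_div_iff₀ hq (by norm_num)]
    linarith
  have hr2 : Cq * C ^ 2 * r ≤ q / 4 := by linarith
  obtain ⟨τ, β, hτ, hβ1, hβ2, htarg⟩ := solve B hε hC hq hq1 hs0 hs1.le hCq0.le hεC hr hr1 hr2
    ht1 ht2 hi1 hi2
  have P : Par A e ε c p H k R C q s ρ Cq (q / (8 * C)) r τ β :=
    { B := B, he := he, ε0 := hε, ε1 := hε1, k0 := hk, k1 := hk1, R0 := hR, C0 := hC, q0 := hq,
      q1 := hq1, s0 := hs0, s1 := hs1, ρ0 := hρ0, ρR := hρ2, ρ1 := hρ3, Cq0 := hCq0, Cqρ := hCqρ,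
      a0 := ha0, a1 := ha1, r0 := hr, rρ := g5, rR := by linarith, τ1 := hτ, β1 := hβ1, β2 := hβ2,
      hH := fun w hw hwi => hH w (by linarith) hwi (by linarith) }
  have hrt : ‖(r : ℂ) * t.2‖ ≤ C * r := by
    rw [norm_mul, Complex.norm_real, Real.norm_eq_abs, abs_of_pos hr, mul_comm]
    gcongr
  refine ⟨mu H p τ β (q / (8 * C)) Cq r s, P.dc, ⟨r * t.2, ⟨?_, ?_⟩, ?_, ?_⟩,
    fun w hw hwi => P.ins hw hwi, fun w hw hwi => P.arc hw hwi, fun x hx => P.pt hx,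
    fun x hx => (P.foot hx).1, fun x hx => (P.foot hx).2, fun x hx => P.lo hx⟩
  · linarith
  · have : 0 < r * t.2.im := mul_pos hr (by linarith)
    simpa using this
  · have : 0 < r * 4 := by positivity
    linarith
  · rw [htarg]

end Vale.Agent.P097.H226
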